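import Vale.Agent.P098.K.Lip
import Vale.Agent.P098.K.Calc

/-!
# P098 B/Inv  (helper names start with inv_)

Invariance.  `Mn.sc`: for a competitor `v` of `sc u x₀ r` use `y ↦ r * v (r⁻¹ • (y - x₀))`, i.e. `sc v (-(r⁻¹ • x₀)) r⁻¹`; `en (sc u x₀ r) x = en u (x₀ + r • x)`, `Measure.integral_comp_smul`, `integral_add_left_eq_self`.
`Mn.iso`: `LinearIsometryEquiv.measurePreserving`, `norm_fderiv_iso`.
-/

set_option maxSynthPendingDepth 3

open MeasureTheory Filter Topology Set Metric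
open scoped ContDiff RealInnerProductSpace NNReal

noncomputable section

namespace Vale.Agent.P098

variable {d : ℕ}

variable {u P Q : E d → ℝ} {r s ε δ : ℝ} {x x₀ : E d}

theorem inv_sc_sc (u : E d → ℝ) (x₀ y : E d) (r s : ℝ) :
    sc (sc u x₀ r) y s = sc u (x₀ + r • y) (r * s) := by
  funext x
  simp only [sc, smul_add, smul_smul, add_assoc, div_div]

theorem inv_sc_one (u : E d → ℝ) : sc u 0 1 = u := by
  funext x
  simp only [sc, one_smul, zero_add, div_one]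

theorem inv_norm (hr : 0 < r) (x : E d) : ‖r • x‖ = r * ‖x‖ := by
  rw [norm_smul, Real.norm_eq_abs, abs_of_pos hr]

theorem inv_pos (hr : 0 < r) : 0 < sc u x₀ r x ↔ 0 < u (x₀ + r • x) :=
  div_pos_iff_of_pos_right hr

theorem inv_FB : x ∈ FB u ↔ u x = 0 ∧ x ∈ closure {y | 0 < u y} := by
  rw [Metric.mem_closure_iff]
  refine and_congr_right fun _ => forall₂_congr fun r _ => exists_congr fun y => ?_
  rw [dist_comm, dist_eq_norm]
  exact and_comm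

theorem inv_trap (hr : 0 < r) (a b ε : ℝ) : (b / r - ε ≤ a / r ∧ a / r ≤ max (b / r + ε) 0) ↔
    (b - r * ε ≤ a ∧ a ≤ max (b + r * ε) 0) := by
  have e1 : b / r - ε = (b - r * ε) / r := by field_simp
  have e2 : max (b / r + ε) 0 = max (b + r * ε) 0 / r := by
    rw [← max_div_div_right hr.le, zero_div, add_div, mul_div_cancel_left₀ _ hr.ne']
  rw [e1, e2, div_le_div_iff_of_pos_right hr, div_le_div_iff_of_pos_right hr]

theorem inv_hom (h : Hom u) (x₀ : E d) (r : ℝ) (hs : 0 < s) :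
    sc u (s • x₀) (s * r) = sc u x₀ r := by
  funext x
  simp only [sc]
  rw [mul_smul, ← smul_add, h s hs, mul_div_mul_left _ _ hs.ne']

theorem inv_en_iso (u : E d → ℝ) (R : E d ≃ₗᵢ[ℝ] E d) (x : E d) :
    en (fun y => u (R y)) x = en u (R x) := by
  unfold en
  rw [norm_fderiv_iso]

theorem inv_lip_iso (h : Lip u) (R : E d ≃ₗᵢ[ℝ] E d) : Lip fun x => u (R x) := by
  obtain ⟨L, hL⟩ := h
  exact ⟨_, hL.comp R.lipschitz⟩

theorem lipschitzWith_sc {L : ℝ≥0} (h : LipschitzWith L u) (x₀ : E d) (hr : 0 < r) :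
    LipschitzWith L (sc u x₀ r) := by
  refine LipschitzWith.of_dist_le_mul fun a b => ?_
  have := lip_le h (x₀ + r • a) (x₀ + r • b)
  rw [add_sub_add_left_eq_sub, ← smul_sub, inv_norm hr] at this
  rw [Real.dist_eq, dist_eq_norm, sc, sc, ← sub_div, abs_div, abs_of_pos hr, div_le_iff₀ hr]
  linarith

theorem en_sc (u : E d → ℝ) (x₀ : E d) (hr : 0 < r) (x : E d) :
    en (sc u x₀ r) x = en u (x₀ + r • x) := by
  unfold en
  rw [fderiv_sc u x₀ hr.ne', if_congr (inv_pos hr) rfl rfl]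

theorem inv_mn (h : Mn u) (x₀ : E d) (hr : 0 < r) : Mn (sc u x₀ r) := by
  obtain ⟨L, hL⟩ := h.lip
  refine ⟨⟨L, lipschitzWith_sc hL x₀ hr⟩, fun x => div_nonneg (h.nn _) hr.le, ?_⟩
  rintro v ⟨L', hv⟩ hn ⟨R, hR⟩
  have hr' : 0 < r⁻¹ := inv_pos_of_pos hr
  have e : sc (sc v (-(r⁻¹ • x₀)) r⁻¹) x₀ r = v := by
    rw [inv_sc_sc, neg_add_cancel, inv_mul_cancel₀ hr.ne', inv_sc_one]
  have h1 := h.le (sc v (-(r⁻¹ • x₀)) r⁻¹) ⟨L', lipschitzWith_sc hv _ hr'⟩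
    (fun x => div_nonneg (hn _) hr'.le) ⟨‖x₀‖ + r * R, fun y hy => by
      have e1 : -(r⁻¹ • x₀) + r⁻¹ • y = r⁻¹ • (y - x₀) := by rw [smul_sub, neg_add_eq_sub]
      have h2 : R ≤ ‖r⁻¹ • (y - x₀)‖ := by
        rw [inv_norm hr', inv_mul_eq_div, le_div_iff₀ hr]
        linarith [norm_sub_norm_le y x₀]
      rw [sc, e1, hR _ h2, sc, smul_inv_smul₀ hr.ne', add_sub_cancel, div_div,
        mul_inv_cancel₀ hr.ne', div_one]⟩
  generalize sc v (-(r⁻¹ • x₀)) r⁻¹ = w at e h1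
  subst e
  simp only [en_sc _ x₀ hr]
  rw [Measure.integral_comp_smul volume (fun y => en w (x₀ + y) - en u (x₀ + y)) r,
    integral_add_left_eq_self (fun y => en w y - en u y) x₀]
  exact smul_nonneg (abs_nonneg _) h1

theorem Mn.sc (h : Mn u) (x₀ : E d) (hr : 0 < r) : Mn (sc u x₀ r) := inv_mn h x₀ hr

theorem Mn.iso (h : Mn u) (R : E d ≃ₗᵢ[ℝ] E d) : Mn fun x => u (R x) := by
  refine ⟨inv_lip_iso h.lip R, fun x => h.nn _, ?_⟩
  rintro v hv hn ⟨ρ, hρ⟩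
  have h1 := h.le (fun y => v (R.symm y)) (inv_lip_iso hv R.symm) (fun y => hn _)
    ⟨ρ, fun y hy => by rw [hρ _ (by rwa [R.symm.norm_map]), R.apply_symm_apply]⟩
  rw [← R.measurePreserving.integral_comp R.toHomeomorph.measurableEmbedding] at h1
  simp only [inv_en_iso, R.symm_apply_apply] at h1 ⊢
  exact h1

theorem sc_sc (u : E d → ℝ) (x₀ y : E d) (r s : ℝ) :
    sc (sc u x₀ r) y s = sc u (x₀ + r • y) (r * s) := inv_sc_sc u x₀ y r s

theorem sc_one (u : E d → ℝ) : sc u 0 1 = u := inv_sc_one u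

theorem sc_inner (e : E d) (hr : 0 < r) : sc (fun x => ⟪e, x⟫) 0 r = fun x => ⟪e, x⟫ := by
  funext x
  simp only [sc, zero_add]
  rw [real_inner_smul_right, mul_div_cancel_left₀ _ hr.ne']

theorem Hom.sc (h : Hom u) (x₀ : E d) (r : ℝ) (hs : 0 < s) :
    sc u (s • x₀) (s * r) = sc u x₀ r := inv_hom h x₀ r hs

theorem Hom.zero (h : Hom u) : u 0 = 0 := by
  have := h 2 two_pos 0
  rw [smul_zero] at this
  linarith

theorem fb_sc (hr : 0 < r) : x ∈ FB (sc u x₀ r) ↔ x₀ + r • x ∈ FB u := by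
  refine and_congr (by rw [sc, div_eq_zero_iff, or_iff_left hr.ne']) ⟨fun h ρ hρ => ?_, fun h ρ hρ => ?_⟩
  · obtain ⟨y, h1, h2⟩ := h (ρ / r) (div_pos hρ hr)
    refine ⟨x₀ + r • y, ?_, (inv_pos hr).1 h2⟩
    rw [add_sub_add_left_eq_sub, ← smul_sub, inv_norm hr, mul_comm]
    exact (lt_div_iff₀ hr).1 h1
  · obtain ⟨y, h1, h2⟩ := h (r * ρ) (mul_pos hr hρ)
    obtain ⟨y, rfl⟩ : ∃ y', y = x₀ + r • y' :=
      ⟨r⁻¹ • (y - x₀), by rw [smul_inv_smul₀ hr.ne', add_sub_cancel]⟩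
    rw [add_sub_add_left_eq_sub, ← smul_sub, inv_norm hr] at h1
    exact ⟨y, lt_of_mul_lt_mul_left h1 hr.le, (inv_pos hr).2 h2⟩

theorem Hom.fb (h : Hom u) (hs : 0 < s) (hx : x ∈ FB u) : s • x ∈ FB u := by
  have e := inv_hom h 0 1 hs
  rw [smul_zero, mul_one, inv_sc_one] at e
  rw [← e, fb_sc hs, zero_add] at hx
  exact hx

theorem isClosed_FB (hu : Continuous u) : IsClosed (FB u) := by
  have e : FB u = u ⁻¹' {0} ∩ closure {y | 0 < u y} := Set.ext fun _ => inv_FB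
  rw [e]
  exact (isClosed_singleton.preimage hu).inter isClosed_closure

/-- A nearest zero. -/
theorem exists_near (hu : Continuous u) (hn : ∀ x, 0 ≤ u x) (h0 : u x₀ = 0) (hx : 0 < u x) :
    ∃ z ∈ FB u, 0 < ‖x - z‖ ∧ ‖x - z‖ ≤ ‖x - x₀‖ ∧ ∀ y, ‖y - x‖ < ‖x - z‖ → 0 < u y := by
  obtain ⟨z, hz, e⟩ := (isClosed_singleton.preimage hu : IsClosed (u ⁻¹' {0})).exists_infDist_eq_dist
    ⟨x₀, h0⟩ x
  have h1 : ∀ y, u y = 0 → ‖x - z‖ ≤ ‖x - y‖ := fun y hy => by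
    rw [← dist_eq_norm, ← dist_eq_norm, ← e]
    exact infDist_le_dist_of_mem hy
  have h2 : 0 < ‖x - z‖ := by
    rw [norm_pos_iff, sub_ne_zero]
    rintro rfl
    exact hx.ne' hz
  have h3 : ∀ y, ‖y - x‖ < ‖x - z‖ → 0 < u y := fun y hy =>
    (hn y).lt_of_ne' fun h4 => (h1 y h4).not_gt (by rwa [norm_sub_rev x y])
  refine ⟨z, inv_FB.2 ⟨hz, ?_⟩, h2, h1 x₀ h0, h3⟩
  refine closure_mono (s := ball x ‖x - z‖) (fun y hy => h3 y (mem_ball_iff_norm.1 hy)) ?_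
  rw [closure_ball x h2.ne', mem_closedBall_iff_norm']

theorem trap_sc (hr : 0 < r) : Trap (sc u 0 r) (sc P 0 r) s ε ↔ Trap u P (r * s) (r * ε) := by
  refine ⟨fun h x hx => ?_, fun h x hx => ?_⟩
  · have := h (r⁻¹ • x) (by
      rw [inv_norm (inv_pos_of_pos hr), inv_mul_eq_div, div_lt_iff₀' hr]
      exact hx)
    simp only [sc, zero_add, smul_inv_smul₀ hr.ne'] at this
    exact (inv_trap hr _ _ _).1 this
  · simp only [sc, zero_add]
    exact (inv_trap hr _ _ _).2 (h _ (by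
      rw [inv_norm hr]
      exact mul_lt_mul_of_pos_left hx hr))

theorem Trap.mono (h : Trap u P r ε) (h1 : s ≤ r) (h2 : ε ≤ δ) : Trap u P s δ := by
  intro x hx
  obtain ⟨h3, h4⟩ := h x (hx.trans_le h1)
  exact ⟨by linarith, h4.trans (max_le_max_right _ (by linarith))⟩

theorem Trap.congr (h : Trap u P r ε) (h1 : ∀ x, ‖x‖ < r → |P x - Q x| ≤ δ) :
    Trap u Q r (ε + δ) := by
  intro x hx
  obtain ⟨h3, h4⟩ := h x hx
  obtain ⟨h5, h6⟩ := abs_le.1 (h1 x hx)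
  exact ⟨by linarith, h4.trans (max_le_max_right _ (by linarith))⟩

theorem Trap.abs (h : Trap u P r ε) (hx : ‖x‖ < r) (hp : 0 < u x) : |u x - P x| ≤ ε := by
  obtain ⟨h3, h4⟩ := h x hx
  rcases le_max_iff.1 h4 with h5 | h5
  · exact abs_le.2 ⟨by linarith, by linarith⟩
  · exact absurd hp h5.not_gt

theorem Trap.zero (h : Trap u P r ε) (hr : 0 < r) (hP : ContinuousAt P 0) (h0 : (0 : E d) ∈ FB u) :
    |P 0| ≤ ε := by
  have h1 := (h 0 (by rwa [norm_zero])).1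
  rw [h0.1] at h1
  refine abs_le.2 ⟨le_of_not_gt fun h2 => ?_, by linarith⟩
  obtain ⟨η, hη, h3⟩ := Metric.eventually_nhds_iff.1 (hP.eventually (gt_mem_nhds h2))
  obtain ⟨y, h4, h5⟩ := h0.2 (min η r) (lt_min hη hr)
  rw [sub_zero, lt_min_iff] at h4
  have h6 := h3 (y := y) (by rw [dist_zero_right]; exact h4.1)
  have h7 := abs_le.1 (h.abs h4.2 h5)
  linarith [h7.2]

end Vale.Agent.P098
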