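import Vale.Agent.P098.B.Super
import Vale.Agent.P098.B.Inv

/-!
# P098 B/Nondeg  (helper names start with nondeg_)

Nondegeneracy.  Rescale (`Mn.sc`) to `x₀ = 0`, `r = 1`.  `Mn.super` on `closedBall 0 1` with `v x = c A (exp (-γ / 4) - exp (-γ ‖x‖ ^ 2))`, `γ = 2 d + 1`, `A = (exp (-γ / 4) - exp (-γ))⁻¹`: `v = c` on the sphere,
`lap v = c A exp (-γ ‖x‖ ^ 2) (2 γ d - 4 γ ^ 2 ‖x‖ ^ 2)` (`lap_comp`, `lap_normSq`, `fderiv_normSq`) is negative where `v > 0` (`‖x‖ > 1 / 2`), `‖∇v‖ ≤ 2 γ c A`, `lap v ≤ 2 γ d c A`, `u ≤ c`.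
`trap_of_close`: with `σ ≤ 1` and `δ = min (σ / 2) (c σ / 2)`: if `⟪e, x⟫ < -σ / 2` apply `nondeg` on the ball of radius `σ / 2` around `x`.
-/

set_option maxSynthPendingDepth 3

open MeasureTheory Filter Topology Set Metric
open scoped ContDiff RealInnerProductSpace NNReal

noncomputable section

namespace Vale.Agent.P098

variable {d : ℕ}

theorem nondeg_norm (x : E d) : ‖fderiv ℝ (fun y : E d => ‖y‖ ^ 2) x‖ = 2 * ‖x‖ := by
  have h : fderiv ℝ (fun y : E d => ‖y‖ ^ 2) x = (2 : ℝ) • innerSL ℝ x := by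
    ext v
    rw [fderiv_normSq]
    simp
  rw [h, norm_smul, innerSL_apply_norm]
  simp

/-- The profile of the barrier. -/
def nondeg_p (γ t : ℝ) : ℝ := (3 * γ)⁻¹ * (Real.exp (-γ / 4) - Real.exp (-γ * t))

theorem nondeg_e (γ t : ℝ) :
    HasDerivAt (fun t => Real.exp (-γ * t)) (Real.exp (-γ * t) * -γ) t := by
  have h := ((hasDerivAt_id t).const_mul (-γ)).exp
  simpa using h

theorem nondeg_d1 {γ : ℝ} (hγ : 0 < γ) (t : ℝ) :
    HasDerivAt (nondeg_p γ) (3⁻¹ * Real.exp (-γ * t)) t := by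
  have h := ((nondeg_e γ t).const_sub (Real.exp (-γ / 4))).const_mul (3 * γ)⁻¹
  refine h.congr_deriv ?_
  field_simp

theorem nondeg_d2 (γ t : ℝ) : HasDerivAt (fun t => 3⁻¹ * Real.exp (-γ * t))
    (3⁻¹ * (Real.exp (-γ * t) * -γ)) t := (nondeg_e γ t).const_mul _

theorem nondeg_sm (γ : ℝ) : ContDiff ℝ 2 fun x : E d => nondeg_p γ (‖x‖ ^ 2) := by
  have h : ContDiff ℝ 2 fun x : E d => ‖x‖ ^ 2 := contDiff_norm_sq ℝ
  unfold nondeg_p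
  exact contDiff_const.mul (contDiff_const.sub (contDiff_const.mul h).exp)

theorem nondeg_lap {γ : ℝ} (hγ : 0 < γ) (x : E d) :
    lap (fun y : E d => nondeg_p γ (‖y‖ ^ 2)) x =
      3⁻¹ * Real.exp (-γ * ‖x‖ ^ 2) * (2 * d - 4 * γ * ‖x‖ ^ 2) := by
  have h : ContDiff ℝ 2 fun x : E d => ‖x‖ ^ 2 := contDiff_norm_sq ℝ
  rw [lap_comp (f := fun y : E d => ‖y‖ ^ 2) (nondeg_d1 hγ) (nondeg_d2 γ) h.contDiffAt,
    lap_normSq, nondeg_norm]
  ring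

theorem nondeg_grad {γ : ℝ} (hγ : 0 < γ) (x : E d) :
    ‖fderiv ℝ (fun y : E d => nondeg_p γ (‖y‖ ^ 2)) x‖ =
      3⁻¹ * Real.exp (-γ * ‖x‖ ^ 2) * (2 * ‖x‖) := by
  have h : ContDiff ℝ 2 fun x : E d => ‖x‖ ^ 2 := contDiff_norm_sq ℝ
  have h1 := (nondeg_d1 hγ (‖x‖ ^ 2)).comp_hasFDerivAt (f := fun y : E d => ‖y‖ ^ 2) x
    (h.differentiable (by norm_num) x).hasFDerivAt
  have h2 : fderiv ℝ (fun y : E d => nondeg_p γ (‖y‖ ^ 2)) x = _ := h1.fderiv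
  rw [h2, norm_smul, nondeg_norm, Real.norm_of_nonneg (by positivity)]

theorem nondeg_np {γ t : ℝ} (hγ : 0 < γ) (ht : t ≤ 1 / 4) : nondeg_p γ t ≤ 0 := by
  have h : Real.exp (-γ / 4) ≤ Real.exp (-γ * t) := Real.exp_le_exp.2 (by nlinarith)
  exact mul_nonpos_of_nonneg_of_nonpos (by positivity) (by linarith)

theorem nondeg_pos {γ : ℝ} (hγ : 0 < γ) : 0 < nondeg_p γ 1 := by
  have h : Real.exp (-γ * 1) < Real.exp (-γ / 4) := Real.exp_lt_exp.2 (by linarith)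
  exact mul_pos (by positivity) (by linarith)

theorem nondeg_le {γ : ℝ} (hγ : 0 < γ) : γ * nondeg_p γ 1 ≤ 3⁻¹ := by
  have h : Real.exp (-γ / 4) ≤ 1 := Real.exp_le_one_iff.2 (by linarith)
  have h2 := Real.exp_pos (-γ * 1)
  have e : γ * nondeg_p γ 1 = 3⁻¹ * (Real.exp (-γ / 4) - Real.exp (-γ * 1)) := by
    unfold nondeg_p
    field_simp
  rw [e]
  linarith

theorem nondeg_one {u : E d → ℝ} (h : Mn u) {γ : ℝ} (hγ : 2 * (d : ℝ) + 1 ≤ γ)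
    (hu : ∀ y, ‖y‖ ≤ 1 → u y ≤ nondeg_p γ 1) (y : E d) (hy : ‖y‖ < 1 / 2) : u y = 0 := by
  have hd : (0 : ℝ) ≤ d := Nat.cast_nonneg d
  have h0 : 0 < γ := by linarith
  have key := h.super (isCompact_closedBall (0 : E d) 1) (nondeg_sm γ) ?_ ?_ ?_ y
    (mem_closedBall_zero_iff.2 (by linarith))
  · have h1 : nondeg_p γ (‖y‖ ^ 2) ≤ 0 := nondeg_np h0 (by nlinarith [norm_nonneg y])
    rw [max_eq_right h1] at key
    exact le_antisymm key (h.nn y)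
  · intro x hx
    have h1 : ‖x‖ = 1 := mem_sphere_zero_iff_norm.1 (frontier_closedBall_subset_sphere hx)
    refine le_max_of_le_left ?_
    rw [h1, one_pow]
    exact hu x h1.le
  · intro x _ hx _
    have h1 : 1 / 4 < ‖x‖ ^ 2 := not_le.1 fun h1 => absurd (nondeg_np h0 h1) (not_le.2 hx)
    rw [nondeg_lap h0]
    exact mul_neg_of_pos_of_neg (by positivity) (by nlinarith)
  · intro x hx _ hp
    have h1 : ‖x‖ ≤ 1 := mem_closedBall_zero_iff.1 hx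
    have h2 := hu x h1
    have h3 := nondeg_le h0
    have h4 : Real.exp (-γ * ‖x‖ ^ 2) ≤ 1 := Real.exp_le_one_iff.2 (by nlinarith [sq_nonneg ‖x‖])
    have h5 := Real.exp_pos (-γ * ‖x‖ ^ 2)
    have h6 := norm_nonneg x
    rw [nondeg_lap h0, nondeg_grad h0]
    generalize Real.exp (-γ * ‖x‖ ^ 2) = t at h4 h5
    have a1 : t * ‖x‖ ≤ 1 := mul_le_one₀ h4 h6 h1
    have a2 : 0 ≤ t * ‖x‖ := by positivity
    have a3 : (3⁻¹ * t * (2 * ‖x‖)) ^ 2 ≤ 4 / 9 := by nlinarith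
    have a4 : t * (2 * d - 4 * γ * ‖x‖ ^ 2) ≤ γ := by
      have b1 : 2 * d - 4 * γ * ‖x‖ ^ 2 ≤ γ := by nlinarith [mul_nonneg h0.le (sq_nonneg ‖x‖)]
      calc t * (2 * d - 4 * γ * ‖x‖ ^ 2) ≤ t * γ := mul_le_mul_of_nonneg_left b1 h5.le
        _ ≤ 1 * γ := mul_le_mul_of_nonneg_right h4 h0.le
        _ = γ := one_mul _
    have a5 : t * (2 * d - 4 * γ * ‖x‖ ^ 2) * u x ≤ 3⁻¹ :=
      calc t * (2 * d - 4 * γ * ‖x‖ ^ 2) * u x ≤ γ * u x := mul_le_mul_of_nonneg_right a4 hp.le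
        _ ≤ γ * nondeg_p γ 1 := mul_le_mul_of_nonneg_left h2 h0.le
        _ ≤ 3⁻¹ := h3
    nlinarith

theorem nondeg (d : ℕ) : ∃ c : ℝ, 0 < c ∧ ∀ u : E d → ℝ, Mn u → ∀ (x₀ : E d) (r : ℝ), 0 < r →
    (∀ y, ‖y - x₀‖ ≤ r → u y ≤ c * r) → ∀ y, ‖y - x₀‖ < r / 2 → u y = 0 := by
  have hd : (0 : ℝ) ≤ d := Nat.cast_nonneg d
  refine ⟨nondeg_p (2 * d + 1) 1, nondeg_pos (by linarith), fun u h x₀ r hr hu y hy => ?_⟩
  have key := nondeg_one (h.sc x₀ hr) le_rfl ?_ (r⁻¹ • (y - x₀)) ?_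
  · unfold sc at key
    rw [smul_smul, mul_inv_cancel₀ hr.ne', one_smul, add_sub_cancel] at key
    exact (div_eq_zero_iff.1 key).resolve_right hr.ne'
  · intro x hx
    unfold sc
    rw [div_le_iff₀ hr]
    refine hu _ ?_
    rw [add_sub_cancel_left, norm_smul, Real.norm_of_nonneg hr.le]
    exact mul_le_of_le_one_right hr.le hx
  · rw [norm_smul, Real.norm_of_nonneg (inv_nonneg.2 hr.le), inv_mul_lt_iff₀ hr]
    linarith

theorem trap_of_close (d : ℕ) {σ : ℝ} (hσ : 0 < σ) : ∃ δ : ℝ, 0 < δ ∧ ∀ (u : E d → ℝ) (e : E d), Mn u →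
    ‖e‖ = 1 → (∀ x, ‖x‖ ≤ 2 → |u x - max ⟪e, x⟫ 0| ≤ δ) → Trap u (fun x => ⟪e, x⟫) 1 σ := by
  obtain ⟨c, hc, H⟩ := nondeg d
  obtain ⟨s, s0, s1, s2⟩ : ∃ s : ℝ, 0 < s ∧ s ≤ σ ∧ s ≤ 1 :=
    ⟨min σ 1, lt_min hσ one_pos, min_le_left _ _, min_le_right _ _⟩
  refine ⟨min (s / 2) (c * (s / 2)), lt_min (by linarith) (by positivity),
    fun u e h he hu x hx => ?_⟩
  have m1 := min_le_left (s / 2) (c * (s / 2))
  have m2 := min_le_right (s / 2) (c * (s / 2))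
  have h1 := abs_le.1 (hu x (by linarith))
  have h2 := le_max_left ⟪e, x⟫ (0 : ℝ)
  refine ⟨by linarith [h1.1], ?_⟩
  rcases le_or_gt (-(s / 2)) ⟪e, x⟫ with h3 | h3
  · have h4 : max ⟪e, x⟫ (0 : ℝ) ≤ ⟪e, x⟫ + s / 2 := max_le (by linarith) (by linarith)
    exact le_max_of_le_left (by linarith [h1.2])
  · refine le_max_of_le_right (H u h x (s / 2) (by linarith) (fun y hy => ?_) x ?_).le
    · have h4 : ‖y‖ ≤ ‖y - x‖ + ‖x‖ := norm_le_norm_sub_add y x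
      have h5 := abs_le.1 (hu y (by linarith))
      have h6 : ⟪e, y - x⟫ ≤ ‖e‖ * ‖y - x‖ := real_inner_le_norm _ _
      rw [inner_sub_right, he] at h6
      rw [max_eq_right (by linarith : ⟪e, y⟫ ≤ (0 : ℝ))] at h5
      linarith [h5.2]
    · rw [sub_self, norm_zero]
      linarith

end Vale.Agent.P098
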