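import Vale.Agent.P098.B.Var

/-!
# P098 B/Stab1  (helper names start with stab1_)

The raw stability inequality.  `ψ = {u > 0}.indicator (min u (t φ))` satisfies `0 ≤ ψ ≤ u`, is Lipschitz (`lip_of_dom`; near a point of `{u > 0}` `φ` is differentiable with `‖fderiv φ‖ ≤ C`, so `|φ y - φ x| ≤ (C + 1) ‖y - x‖` eventually).
`Mn.var` with `-ψ` and `Mn.outer` give `volume (At u φ t) ≤ ∫ ‖∇ψ‖ ^ 2`; `∇ψ = ∇u` a.e. on `At` (`ae_fderiv_eq`), `∇ψ = t ∇φ` on the open set `{u > 0, t φ < u}`, `∇ψ = 0` where `u = 0` (`fderiv_zero_of_zero`).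
`fderiv φ x = 0` at points of `{u > 0}` where `φ x = 0` (local minimum), which gives the integrability (`measurable_fderiv`).  `At` is measurable: `φ` is continuous on the open set `{u > 0}`.
-/

set_option maxSynthPendingDepth 3

open MeasureTheory Filter Topology Set Metric
open scoped ContDiff RealInnerProductSpace NNReal

noncomputable section

namespace Vale.Agent.P098

variable {d : ℕ}

/-- The strip near the free boundary. -/
def At (u φ : E d → ℝ) (t : ℝ) : Set (E d) := {x | 0 < u x ∧ u x ≤ t * φ x}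

variable {u φ : E d → ℝ} {t : ℝ}

theorem stab1_open (hu : Continuous u) : IsOpen {x | 0 < u x} := isOpen_lt continuous_const hu

theorem stab1_open' (hu : Continuous u) (hφ : Test u φ) (t : ℝ) :
    IsOpen ({x | 0 < u x} ∩ (fun x => u x - t * φ x) ⁻¹' Ioi 0) := by
  refine ContinuousOn.isOpen_inter_preimage (fun x hx => ?_) (stab1_open hu) isOpen_Ioi
  exact (hu.continuousAt.sub
    (continuousAt_const.mul (hφ.sm x hx).continuousAt)).continuousWithinAt

theorem measurableSet_At (hu : Continuous u) (hφ : Test u φ) (t : ℝ) : MeasurableSet (At u φ t) := by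
  have e : At u φ t =
      {x | 0 < u x} \ ({x | 0 < u x} ∩ (fun x => u x - t * φ x) ⁻¹' Ioi 0) := by
    ext x
    constructor
    · rintro ⟨h1, h2⟩
      exact ⟨h1, fun h => absurd (sub_pos.1 h.2) (not_lt.2 h2)⟩
    · rintro ⟨h1, h2⟩
      exact ⟨h1, not_lt.1 fun h => h2 ⟨h1, sub_pos.2 h⟩⟩
  rw [e]
  exact (stab1_open hu).measurableSet.diff (stab1_open' hu hφ t).measurableSet

theorem At_ann (hφ : Test u φ) : ∃ a b : ℝ, 0 < a ∧ ∀ t : ℝ, ∀ x ∈ At u φ t, a ≤ ‖x‖ ∧ ‖x‖ ≤ b := by
  obtain ⟨a, b, ha, h⟩ := hφ.supp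
  refine ⟨a, b, ha, fun t x hx => ?_⟩
  have h1 : ¬ (‖x‖ ≤ a ∨ b ≤ ‖x‖) := fun h' => by
    have h2 := hx.2
    rw [h x hx.1 h', mul_zero] at h2
    exact absurd hx.1 (not_lt.2 h2)
  rw [not_or, not_le, not_le] at h1
  exact ⟨h1.1.le, h1.2.le⟩

theorem integrableOn_test (hu : Continuous u) (hφ : Test u φ) :
    IntegrableOn (fun x => ‖fderiv ℝ φ x‖ ^ 2) {x | 0 < u x} := by
  obtain ⟨C, hC⟩ := hφ.bd
  obtain ⟨a, b, -, h⟩ := hφ.supp
  have hO := (stab1_open hu).measurableSet
  rw [← integrable_indicator_iff hO]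
  have hm : Measurable fun x => ‖fderiv ℝ φ x‖ ^ 2 := (measurable_fderiv ℝ φ).norm.pow_const 2
  refine integrable_of_bdd (C := C ^ 2) (R := b) (hm.indicator hO).aestronglyMeasurable
    (Eventually.of_forall fun x _ => ?_) (Eventually.of_forall fun x hx => ?_)
  · by_cases hx : 0 < u x
    · rw [indicator_of_mem (show x ∈ {x | 0 < u x} from hx), abs_of_nonneg (sq_nonneg _)]
      exact pow_le_pow_left₀ (norm_nonneg _) (hC x hx).2 2
    · rw [indicator_of_notMem (show x ∉ {x | 0 < u x} from hx), abs_zero]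
      exact sq_nonneg _
  · by_cases hx' : 0 < u x
    · have hmin : IsLocalMin φ x := by
        filter_upwards [(stab1_open hu).mem_nhds hx'] with y hy
        rw [h x hx' (Or.inr hx.le)]
        exact hφ.nn y hy
      rw [indicator_of_mem (show x ∈ {x | 0 < u x} from hx'), hmin.fderiv_eq_zero, norm_zero]
      norm_num
    · rw [indicator_of_notMem (show x ∉ {x | 0 < u x} from hx')]

theorem stab1_fin (hφ : Test u φ) (t : ℝ) : volume (At u φ t) ≠ ⊤ := by
  obtain ⟨a, b, -, h⟩ := At_ann hφ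
  refine ne_top_of_le_ne_top (measure_closedBall_lt_top (x := (0 : E d)) (r := b)).ne
    (measure_mono fun x hx => ?_)
  exact mem_closedBall_zero_iff.2 (h t x hx).2

/-- The measure of the strips tends to zero (dominated convergence: each point leaves the strips). -/
theorem tendsto_At (hu : Continuous u) (hφ : Test u φ) :
    Tendsto (fun t : ℝ => (volume (At u φ t)).toReal) (𝓝[>] 0) (𝓝 0) := by
  obtain ⟨a, b, -, h⟩ := At_ann hφ
  have h1 := tendsto_measure_of_tendsto_indicator (𝓝[>] (0 : ℝ)) (μ := volume) (A := ∅)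
    (As := fun t => At u φ t) (measurableSet_At hu hφ) (B := closedBall (0 : E d) b)
    measurableSet_closedBall measure_closedBall_lt_top.ne
    (Eventually.of_forall fun t x hx => mem_closedBall_zero_iff.2 (h t x hx).2) (fun x => ?_)
  · rw [measure_empty] at h1
    exact (ENNReal.tendsto_toReal ENNReal.zero_ne_top).comp h1
  · by_cases hx : 0 < u x
    · have h2 : Tendsto (fun t : ℝ => t * φ x) (𝓝[>] 0) (𝓝 (0 * φ x)) :=
        (tendsto_id.mul_const _).mono_left nhdsWithin_le_nhds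
      rw [zero_mul] at h2
      filter_upwards [h2.eventually (gt_mem_nhds hx)] with t ht
      exact ⟨fun h3 => absurd ht (not_lt.2 h3.2), fun h3 => h3.elim⟩
    · exact Eventually.of_forall fun t => ⟨fun h3 => absurd h3.1 hx, fun h3 => h3.elim⟩

theorem stab1_loc {C : ℝ} {x : E d} (h : DifferentiableAt ℝ φ x) (hC : ‖fderiv ℝ φ x‖ ≤ C) :
    ∀ᶠ y in 𝓝 x, |φ y - φ x| ≤ (C + 1) * ‖y - x‖ := by
  filter_upwards [h.hasFDerivAt.isLittleO.def one_pos] with y hy
  have h1 := (fderiv ℝ φ x).le_of_opNorm_le hC (y - x)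
  rw [Real.norm_eq_abs] at hy h1
  have h2 := abs_add_le (φ y - φ x - fderiv ℝ φ x (y - x)) (fderiv ℝ φ x (y - x))
  rw [sub_add_cancel] at h2
  linarith

/-- The truncated test function. -/
def stab1_psi (u φ : E d → ℝ) (t : ℝ) (x : E d) : ℝ := if 0 < u x then min (u x) (t * φ x) else 0

theorem stab1_bd (hn : ∀ x, 0 ≤ u x) (hφ : Test u φ) (ht : 0 < t) (x : E d) :
    0 ≤ stab1_psi u φ t x ∧ stab1_psi u φ t x ≤ u x := by
  unfold stab1_psi
  split_ifs with hx
  · exact ⟨le_min hx.le (mul_nonneg ht.le (hφ.nn x hx)), min_le_left _ _⟩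
  · exact ⟨le_rfl, hn x⟩

theorem stab1_lip (hu : Lip u) (hn : ∀ x, 0 ≤ u x) (hφ : Test u φ) (ht : 0 < t) :
    Lip (stab1_psi u φ t) := by
  obtain ⟨L, hL0, -, hL⟩ := hu.bdd
  obtain ⟨C, hC⟩ := hφ.bd
  have hk : 0 ≤ t * (|C| + 1) := by positivity
  refine lip_of_dom hu hn (C := 1 + L + t * (|C| + 1)) (fun x => ?_) (fun x hx => ?_)
  · rw [abs_of_nonneg (stab1_bd hn hφ ht x).1]
    exact (stab1_bd hn hφ ht x).2.trans (le_mul_of_one_le_left (hn x) (by linarith))
  · filter_upwards [(stab1_open hu.continuous).mem_nhds hx,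
      stab1_loc ((hφ.sm x hx).differentiableAt one_ne_zero) ((hC x hx).2.trans (le_abs_self C))]
      with y hy h1
    have hy' : 0 < u y := hy
    rw [stab1_psi, stab1_psi, if_pos hx, if_pos hy']
    refine (abs_min_sub_min_le_max _ _ _ _).trans (max_le ?_ ?_)
    · exact (hL y x).trans (mul_le_mul_of_nonneg_right (by linarith) (norm_nonneg _))
    · rw [← mul_sub, abs_mul, abs_of_pos ht]
      refine (mul_le_mul_of_nonneg_left h1 ht.le).trans ?_
      rw [← mul_assoc]
      exact mul_le_mul_of_nonneg_right (by linarith) (norm_nonneg _)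

theorem stab1_ae (hu : Lip u) (hn : ∀ x, 0 ≤ u x) (hφ : Test u φ) (ht : 0 < t) :
    ∀ᵐ x, ‖fderiv ℝ (stab1_psi u φ t) x‖ ^ 2 ≤
      (At u φ t).indicator (fun x => ‖fderiv ℝ u x‖ ^ 2) x +
        {x | 0 < u x}.indicator (fun x => t ^ 2 * ‖fderiv ℝ φ x‖ ^ 2) x := by
  filter_upwards [ae_fderiv_eq (stab1_lip hu hn hφ ht) hu] with x hx
  have p1 : 0 ≤ (At u φ t).indicator (fun x => ‖fderiv ℝ u x‖ ^ 2) x :=
    indicator_nonneg (fun _ _ => sq_nonneg _) x
  have p2 : 0 ≤ {x | 0 < u x}.indicator (fun x => t ^ 2 * ‖fderiv ℝ φ x‖ ^ 2) x :=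
    indicator_nonneg (fun _ _ => by positivity) x
  by_cases h0 : 0 < u x
  · by_cases h1 : u x ≤ t * φ x
    · rw [indicator_of_mem (show x ∈ At u φ t from ⟨h0, h1⟩),
        hx (by rw [stab1_psi, if_pos h0, min_eq_left h1])]
      linarith
    · have he : stab1_psi u φ t =ᶠ[𝓝 x] fun y => t • φ y := by
        filter_upwards [(stab1_open' hu.continuous hφ t).mem_nhds
          ⟨h0, sub_pos.2 (not_le.1 h1)⟩] with y hy
        have hy1 : 0 < u y := hy.1
        rw [stab1_psi, if_pos hy1, min_eq_right (sub_pos.1 hy.2).le, smul_eq_mul]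
      rw [he.fderiv_eq, calc_smul, norm_smul, mul_pow, Real.norm_eq_abs, sq_abs,
        indicator_of_mem (show x ∈ {x | 0 < u x} from h0)]
      linarith
  · rw [fderiv_zero_of_zero (fun y => (stab1_bd hn hφ ht y).1) (by rw [stab1_psi, if_neg h0]),
      norm_zero]
    linarith

theorem stab_raw (h : Mn u) (hφ : Test u φ) (ht : 0 < t) :
    ∫ x in At u φ t, (1 - ‖gradient u x‖ ^ 2) ≤ t ^ 2 * ∫ x in {x | 0 < u x}, ‖fderiv ℝ φ x‖ ^ 2 := by
  have hc := h.lip.continuous
  have hA := measurableSet_At hc hφ t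
  have hO := (stab1_open hc).measurableSet
  have hψ := stab1_lip h.lip h.nn hφ ht
  have hb := stab1_bd h.nn hφ ht
  obtain ⟨a, b, -, hs⟩ := hφ.supp
  have h0 : ∀ x, b ≤ ‖x‖ → stab1_psi u φ t x = 0 := by
    intro x hx
    unfold stab1_psi
    split_ifs with hx'
    · rw [hs x hx' (Or.inr hx), mul_zero, min_eq_right hx'.le]
    · rfl
  have hψ' : Lip fun x => -stab1_psi u φ t x := by
    obtain ⟨L, hL⟩ := hψ
    exact ⟨L, hL.neg⟩
  have h0' : ∀ x, b ≤ ‖x‖ → -stab1_psi u φ t x = 0 := fun x hx => by rw [h0 x hx, neg_zero]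
  have v1 := h.var hψ' h0' fun x => by linarith [(hb x).2]
  have v2 := h.outer hψ' h0' (C := 1) fun x => by
    rw [abs_neg, abs_of_nonneg (hb x).1, one_mul]
    exact (hb x).2
  have e1 : (fun x => ((if 0 < u x + -stab1_psi u φ t x then 1 else 0) -
      if 0 < u x then 1 else 0 : ℝ)) = fun x => -(At u φ t).indicator (fun _ => (1 : ℝ)) x := by
    funext x
    by_cases h1 : 0 < u x
    · by_cases h2 : u x ≤ t * φ x
      · rw [indicator_of_mem (show x ∈ At u φ t from ⟨h1, h2⟩), stab1_psi, if_pos h1, if_pos h1,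
          min_eq_left h2, if_neg (by linarith)]
        ring
      · rw [indicator_of_notMem (show x ∉ At u φ t from fun h3 => h2 h3.2), stab1_psi,
          if_pos h1, if_pos h1, min_eq_right (not_le.1 h2).le, if_pos (by linarith)]
        ring
    · rw [indicator_of_notMem (show x ∉ At u φ t from fun h3 => h1 h3.1), stab1_psi,
        if_neg h1, if_neg h1, if_neg (by linarith)]
      ring
  rw [v2, e1, integral_neg, integral_indicator hA] at v1
  simp only [fderiv_fun_neg, norm_neg] at v1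
  obtain ⟨L, hL0, hL, -⟩ := h.lip.bdd
  have i1 : IntegrableOn (fun x => ‖fderiv ℝ u x‖ ^ 2) (At u φ t) := by
    refine Measure.integrableOn_of_bounded (M := L ^ 2) (stab1_fin hφ t)
      ((measurable_fderiv ℝ u).norm.pow_const 2).aestronglyMeasurable
      (Eventually.of_forall fun x => ?_)
    rw [Real.norm_eq_abs, abs_of_nonneg (sq_nonneg _)]
    exact pow_le_pow_left₀ (norm_nonneg _) (hL x) 2
  have i2 : IntegrableOn (fun x => t ^ 2 * ‖fderiv ℝ φ x‖ ^ 2) {x | 0 < u x} :=
    (integrableOn_test hc hφ).const_mul _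
  have i3 : IntegrableOn (fun _ => (1 : ℝ)) (At u φ t) := integrableOn_const (stab1_fin hφ t)
  have j1 := (integrable_indicator_iff hA).2 i1
  have j2 := (integrable_indicator_iff hO).2 i2
  have v3 := integral_mono_ae (integrable_sq hψ h0) (j1.add j2) (stab1_ae h.lip h.nn hφ ht)
  rw [integral_add' j1 j2, integral_indicator hA, integral_indicator hO,
    integral_const_mul] at v3
  simp only [norm_gradient]
  rw [integral_sub i3 i1]
  linarith

end Vale.Agent.P098
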