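import Vale.Agent.P098.B.Stab1

/-!
# P098 B/Stab2  (helper names start with stab2_)

The outer identity.  `k = {u > 0}.indicator (min (φ ^ 2) (u ^ 2 / t ^ 2))` and `f = m k` are Lipschitz by `lip_of_dom` (`0 ≤ k ≤ |φ| u / t`; where `φ x = 0` or off the annulus use `k ≤ φ ^ 2`; on `{u > 0}` the function `u ^ 2 / t ^ 2` has gradient bounded on bounded sets), `Mn.outer` gives `∫ dot u f = 0`.
At a point of `At` where `k` is differentiable, `u ^ 2 / t ^ 2 - k` has a local minimum, so `∇k = 2 u ∇u / t ^ 2`; on `{u > 0} \ At`, `k = φ ^ 2` near the point; where `u = 0`, `∇u = 0`.  `u` is smooth on `{u > 0}` by `Mn.harm`.  `dot_comm`, `dot_eq`.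
-/

set_option maxSynthPendingDepth 3

open MeasureTheory Filter Topology Set Metric
open scoped ContDiff RealInnerProductSpace NNReal

noncomputable section

namespace Vale.Agent.P098

variable {d : ℕ}

variable {u φ m : E d → ℝ} {t : ℝ}

theorem stab2_io {S : Set (E d)} (hS : MeasurableSet S) {f : E d → ℝ} (hf : ContinuousOn f S)
    {C b : ℝ} (hC : ∀ x ∈ S, |f x| ≤ C) (hb : ∀ x ∈ S, b < ‖x‖ → f x = 0) : IntegrableOn f S := by
  rw [← integrable_indicator_iff hS]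
  refine integrable_of_bdd (C := |C|) (R := b)
    ((aestronglyMeasurable_indicator_iff hS).2 (hf.aestronglyMeasurable hS))
    (Eventually.of_forall fun x _ => ?_) (Eventually.of_forall fun x hx => ?_)
  · by_cases h : x ∈ S
    · rw [indicator_of_mem h]
      exact (hC x h).trans (le_abs_self C)
    · rw [indicator_of_notMem h, abs_zero]
      exact abs_nonneg C
  · by_cases h : x ∈ S
    · rw [indicator_of_mem h, hb x h hx]
    · exact indicator_of_notMem h f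

theorem stab2_pt {F : E d → ℝ} {x : E d} (h : DifferentiableAt ℝ F x) {C : ℝ}
    (hC : ‖fderiv ℝ F x‖ ≤ C) : ∀ᶠ y in 𝓝 x, |F y - F x| ≤ (C + 1) * ‖y - x‖ := by
  filter_upwards [h.hasFDerivAt.isLittleO.def one_pos] with y hy
  have h1 : |fderiv ℝ F x (y - x)| ≤ C * ‖y - x‖ :=
    ((fderiv ℝ F x).le_opNorm _).trans (mul_le_mul_of_nonneg_right hC (norm_nonneg _))
  rw [Real.norm_eq_abs] at hy
  have h2 := abs_le.1 hy
  have h3 := abs_le.1 h1
  rw [abs_le]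
  constructor <;> linarith [h2.1, h2.2, h3.1, h3.2]

theorem stab2_mul {a b c e : ℝ} (h1 : |a| ≤ c) (h2 : |b| ≤ e) : |a * b| ≤ c * e := by
  rw [abs_mul]
  exact mul_le_mul h1 h2 (abs_nonneg _) ((abs_nonneg _).trans h1)

theorem stab2_app {l : E d →L[ℝ] ℝ} {v : E d} {A B : ℝ} (h1 : ‖l‖ ≤ A) (h2 : ‖v‖ ≤ B) :
    |l v| ≤ A * B :=
  (l.le_opNorm v).trans (mul_le_mul h1 h2 (norm_nonneg _) ((norm_nonneg _).trans h1))

theorem stab2_d {x : E d} (hm : DifferentiableAt ℝ m x) (hφ : DifferentiableAt ℝ φ x) :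
    HasFDerivAt (fun y => m y * φ y ^ 2)
      (φ x • (φ x • fderiv ℝ m x + (2 * m x) • fderiv ℝ φ x)) x := by
  have e : (fun y => m y * φ y ^ 2) = m * (φ * φ) := by
    funext y; simp [sq]
  rw [e]
  refine (hm.hasFDerivAt.mul (hφ.hasFDerivAt.mul hφ.hasFDerivAt)).congr_fderiv ?_
  ext v
  simp only [add_apply, smul_apply, smul_eq_mul, Pi.mul_apply]
  ring

theorem stab2_dn {x : E d} (hm : DifferentiableAt ℝ m x) (hφ : DifferentiableAt ℝ φ x) {K C : ℝ}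
    (h1 : |φ x| ≤ K) (h2 : ‖fderiv ℝ φ x‖ ≤ K) (h3 : |m x| ≤ C) (h4 : ‖fderiv ℝ m x‖ ≤ C) :
    ‖fderiv ℝ (fun y => m y * φ y ^ 2) x‖ ≤ K * (K * C + 2 * C * K) := by
  have hK : 0 ≤ K := (abs_nonneg _).trans h1
  have hC : 0 ≤ C := (abs_nonneg _).trans h3
  rw [(stab2_d hm hφ).fderiv, norm_smul]
  refine mul_le_mul h1 ((norm_add_le _ _).trans (add_le_add ?_ ?_)) (norm_nonneg _) hK
  · rw [norm_smul]
    exact mul_le_mul h1 h4 (norm_nonneg _) hK
  · rw [norm_smul]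
    exact mul_le_mul (stab2_mul (by norm_num) h3) h2 (norm_nonneg _) (by positivity)

theorem stab2_b1 (hφ : Test u φ) (hm : ∀ x, 0 < u x → ContDiffAt ℝ 1 m x)
    (hb : ∀ a b : ℝ, 0 < a → ∃ C : ℝ, ∀ x, 0 < u x → a ≤ ‖x‖ → ‖x‖ ≤ b →
      |m x| ≤ C ∧ ‖fderiv ℝ m x‖ ≤ C) :
    ∃ C : ℝ, (∀ x, 0 < u x → ‖fderiv ℝ (fun y => m y * φ y ^ 2) x‖ ≤ C) ∧
      ∀ x, 0 < u x → |m x * φ x| ≤ C := by
  obtain ⟨K, hK⟩ := hφ.bd
  obtain ⟨a, b, ha, hs⟩ := hφ.supp
  obtain ⟨C, hC⟩ := hb a b ha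
  have hab : ∀ x, 0 < u x → φ x ≠ 0 → a ≤ ‖x‖ ∧ ‖x‖ ≤ b := fun x hx h0 =>
    ⟨le_of_not_gt fun h => h0 (hs x hx (Or.inl h.le)),
      le_of_not_gt fun h => h0 (hs x hx (Or.inr h.le))⟩
  refine ⟨|K * (K * C + 2 * C * K)| + |C * K|, fun x hx => ?_, fun x hx => ?_⟩
  · have d1 := (hm x hx).differentiableAt one_ne_zero
    have d2 := (hφ.sm x hx).differentiableAt one_ne_zero
    by_cases h0 : φ x = 0
    · rw [(stab2_d d1 d2).fderiv, h0, zero_smul, norm_zero]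
      positivity
    · have h1 := hC x hx (hab x hx h0).1 (hab x hx h0).2
      linarith [stab2_dn d1 d2 (hK x hx).1 (hK x hx).2 h1.1 h1.2,
        le_abs_self (K * (K * C + 2 * C * K)), abs_nonneg (C * K)]
  · by_cases h0 : φ x = 0
    · rw [h0, mul_zero, abs_zero]
      positivity
    · have h1 := hC x hx (hab x hx h0).1 (hab x hx h0).2
      linarith [stab2_mul h1.1 (hK x hx).1, le_abs_self (C * K),
        abs_nonneg (K * (K * C + 2 * C * K))]

/-- The truncated square. -/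
def stab2_k (u φ : E d → ℝ) (t : ℝ) (x : E d) : ℝ :=
  if 0 < u x then min (φ x ^ 2) ((t⁻¹ * u x) ^ 2) else 0

theorem stab2_off (hu : Continuous u) (hφ : Test u φ) (ht : 0 < t) {x : E d} (hx : 0 < u x)
    (hx' : x ∉ At u φ t) : ∀ᶠ y in 𝓝 x, stab2_k u φ t y = φ y ^ 2 := by
  have h1 : t * φ x < u x := not_le.1 fun h => hx' ⟨hx, h⟩
  filter_upwards [(isOpen_lt continuous_const hu).mem_nhds hx,
    (continuousAt_const.mul (hφ.sm x hx).continuousAt).eventually_lt hu.continuousAt h1] with y a b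
  rw [stab2_k, if_pos a, min_eq_left]
  refine pow_le_pow_left₀ (hφ.nn y a) ?_ 2
  rw [le_inv_mul_iff₀ ht]
  exact le_of_lt b

theorem stab2_on (ht : 0 < t) {x : E d} (hx : x ∈ At u φ t) :
    stab2_k u φ t x = (t⁻¹ * u x) ^ 2 := by
  rw [stab2_k, if_pos hx.1, min_eq_right]
  refine pow_le_pow_left₀ (mul_nonneg (inv_nonneg.2 ht.le) hx.1.le) ?_ 2
  rw [inv_mul_le_iff₀ ht]
  exact hx.2

theorem stab2_dom (hn : ∀ x, 0 ≤ u x) (hφ : Test u φ) (ht : 0 < t) {C : ℝ} (hC0 : 0 ≤ C)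
    (hC : ∀ x, 0 < u x → |m x * φ x| ≤ C) (x : E d) :
    |m x * stab2_k u φ t x| ≤ C * t⁻¹ * u x := by
  have h0 : 0 ≤ t⁻¹ * u x := mul_nonneg (inv_nonneg.2 ht.le) (hn x)
  rw [mul_assoc, stab2_k]
  split_ifs with hx
  · have h1 := hφ.nn x hx
    have h2 := hC x hx
    generalize t⁻¹ * u x = s at *
    have h3 : min (φ x ^ 2) (s ^ 2) ≤ φ x * s := by
      rcases le_total (φ x) s with h | h
      · exact (min_le_left _ _).trans (by nlinarith)
      · exact (min_le_right _ _).trans (by nlinarith)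
    rw [abs_mul, abs_of_nonneg h1] at h2
    rw [abs_mul, abs_of_nonneg (le_min (sq_nonneg (φ x)) (sq_nonneg s))]
    calc |m x| * min (φ x ^ 2) (s ^ 2) ≤ |m x| * (φ x * s) :=
          mul_le_mul_of_nonneg_left h3 (abs_nonneg _)
      _ = |m x| * φ x * s := by ring
      _ ≤ C * s := mul_le_mul_of_nonneg_right h2 h0
  · rw [mul_zero, abs_zero]
    exact mul_nonneg hC0 h0

theorem stab2_du (h : Mn u) {x : E d} (hx : 0 < u x) : DifferentiableAt ℝ u x :=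
  (h.harm x hx).1.differentiableAt (by simp)

theorem stab2_b2 (h : Mn u) (hφ : Test u φ) (hm : ∀ x, 0 < u x → ContDiffAt ℝ 1 m x)
    (hb : ∀ a b : ℝ, 0 < a → ∃ C : ℝ, ∀ x, 0 < u x → a ≤ ‖x‖ → ‖x‖ ≤ b →
      |m x| ≤ C ∧ ‖fderiv ℝ m x‖ ≤ C) (ht : 0 < t) :
    ∃ C : ℝ, ∀ x ∈ At u φ t, ‖fderiv ℝ (fun y => m y * (t⁻¹ * u y) ^ 2) x‖ ≤ C := by
  obtain ⟨K, hK⟩ := hφ.bd
  obtain ⟨a, b, ha, hs⟩ := At_ann hφ
  obtain ⟨C, hC⟩ := hb a b ha
  obtain ⟨L, hL0, hL, -⟩ := h.lip.bdd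
  obtain ⟨M, hM⟩ : ∃ M, M = |K| + t⁻¹ * L := ⟨_, rfl⟩
  have ht' : 0 < t⁻¹ := inv_pos.2 ht
  refine ⟨M * (M * C + 2 * C * M), fun x hx => ?_⟩
  have h1 := hC x hx.1 (hs t x hx).1 (hs t x hx).2
  have d1 := stab2_du h hx.1
  refine stab2_dn (φ := fun y => t⁻¹ * u y) ((hm x hx.1).differentiableAt one_ne_zero)
    (d1.const_mul _) ?_ ?_ h1.1 h1.2
  · have h2 : t⁻¹ * u x ≤ φ x := by
      rw [inv_mul_le_iff₀ ht]
      exact hx.2
    rw [abs_of_nonneg (mul_nonneg ht'.le hx.1.le), hM]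
    linarith [le_abs_self (φ x), (hK x hx.1).1, le_abs_self K, mul_nonneg ht'.le hL0]
  · rw [fderiv_const_mul d1, norm_smul, Real.norm_eq_abs, abs_of_pos ht', hM]
    linarith [mul_le_mul_of_nonneg_left (hL x) ht'.le, abs_nonneg K]

theorem stab2_lip (h : Mn u) (hφ : Test u φ) (hm : ∀ x, 0 < u x → ContDiffAt ℝ 1 m x)
    (hb : ∀ a b : ℝ, 0 < a → ∃ C : ℝ, ∀ x, 0 < u x → a ≤ ‖x‖ → ‖x‖ ≤ b →
      |m x| ≤ C ∧ ‖fderiv ℝ m x‖ ≤ C) (ht : 0 < t) :
    Lip (fun x => m x * stab2_k u φ t x) ∧ ∃ C : ℝ, ∀ x, |m x * stab2_k u φ t x| ≤ C * u x := by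
  obtain ⟨C, hC1, hC2⟩ := stab2_b1 hφ hm hb
  obtain ⟨C', hC'⟩ := stab2_b2 h hφ hm hb ht
  have hd := stab2_dom h.nn hφ ht (abs_nonneg C) fun x hx => (hC2 x hx).trans (le_abs_self C)
  have hp : 0 ≤ |C| * t⁻¹ := mul_nonneg (abs_nonneg C) (inv_nonneg.2 ht.le)
  refine ⟨lip_of_dom h.lip h.nn (C := |C| * t⁻¹ + (|C| + |C'| + 1)) (fun x => (hd x).trans ?_)
    fun x hx => ?_, _, hd⟩
  · exact mul_le_mul_of_nonneg_right (le_add_of_nonneg_right (by positivity)) (h.nn x)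
  have d1 := (hm x hx).differentiableAt one_ne_zero
  have d2 := (hφ.sm x hx).differentiableAt one_ne_zero
  have d3 : DifferentiableAt ℝ (fun y => t⁻¹ * u y) x := (stab2_du h hx).const_mul _
  have e1 := stab2_pt (stab2_d d1 d2).differentiableAt (C := |C| * t⁻¹ + (|C| + |C'|))
    (by linarith [hC1 x hx, le_abs_self C, abs_nonneg C'])
  rw [add_assoc] at e1
  by_cases hA : x ∈ At u φ t
  · have e2 := stab2_pt (stab2_d d1 d3).differentiableAt (C := |C| * t⁻¹ + (|C| + |C'|))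
      (by linarith [hC' x hA, le_abs_self C', abs_nonneg C])
    rw [add_assoc] at e2
    have hO : ∀ᶠ y in 𝓝 x, 0 < u y := (isOpen_lt continuous_const h.lip.continuous).mem_nhds hx
    rcases hA.2.lt_or_eq with h1 | h1
    · filter_upwards [e2, hO, h.lip.continuous.continuousAt.eventually_lt
        (continuousAt_const.mul (hφ.sm x hx).continuousAt) h1] with y a b c
      rwa [stab2_on ht hA, stab2_on ht ⟨b, le_of_lt c⟩]
    · have h2 : t⁻¹ * u x = φ x := by rw [h1, inv_mul_cancel_left₀ ht.ne']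
      filter_upwards [e1, e2, hO] with y a b c
      rw [stab2_on ht hA, stab2_k, if_pos c]
      rcases min_choice (φ y ^ 2) ((t⁻¹ * u y) ^ 2) with h3 | h3 <;> rw [h3]
      · rwa [h2]
      · exact b
  · have e2 := stab2_off h.lip.continuous hφ ht hx hA
    filter_upwards [e1, e2] with y a b
    rwa [b, e2.self_of_nhds]

theorem stab2_dk (h : Mn u) (ht : 0 < t) {x : E d} (hx : x ∈ At u φ t)
    (hm : DifferentiableAt ℝ m x) (hk : DifferentiableAt ℝ (stab2_k u φ t) x) :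
    dot u (fun y => m y * stab2_k u φ t y) x = fderiv ℝ m x (gradient u x) * u x ^ 2 / t ^ 2 +
      2 * (m x * u x * ‖gradient u x‖ ^ 2) / t ^ 2 := by
  have d1 := (stab2_du h hx.1).hasFDerivAt
  have d2 : HasFDerivAt (fun y => (t⁻¹ * u y) ^ 2) _ x := (d1.const_mul t⁻¹).pow 2
  have hmin : IsLocalMin (fun y => (t⁻¹ * u y) ^ 2 - stab2_k u φ t y) x := by
    refine Eventually.of_forall fun y => ?_
    simp only [stab2_on ht hx, sub_self, sub_nonneg]
    rw [stab2_k]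
    split_ifs
    · exact min_le_right _ _
    · exact sq_nonneg _
  have e := sub_eq_zero.1 (hmin.hasFDerivAt_eq_zero (d2.fun_sub hk.hasFDerivAt))
  have e2 : fderiv ℝ u x (gradient u x) = ‖gradient u x‖ ^ 2 := by
    rw [← inner_gradient, real_inner_self_eq_norm_sq]
  rw [dot_comm, dot_eq, (hm.hasFDerivAt.fun_mul hk.hasFDerivAt).fderiv, ← e, stab2_on ht hx]
  simp only [add_apply, smul_apply, smul_eq_mul, nsmul_eq_mul, e2]
  have := ht.ne'
  norm_num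
  field_simp
  ring

theorem stab2_cg (h : Mn u) : ContinuousOn (gradient u) {x | 0 < u x} := fun x hx =>
  (contDiffAt_gradient (h.harm x hx).1).continuousAt.continuousWithinAt

theorem stab2_cd (hm : ∀ x, 0 < u x → ContDiffAt ℝ 1 m x) :
    ContinuousOn (fderiv ℝ m) {x | 0 < u x} := fun x hx =>
  ((hm x hx).continuousAt_fderiv one_ne_zero).continuousWithinAt

theorem stab2_i (h : Mn u) (hφ : Test u φ) (hm : ∀ x, 0 < u x → ContDiffAt ℝ 1 m x)
    (hb : ∀ a b : ℝ, 0 < a → ∃ C : ℝ, ∀ x, 0 < u x → a ≤ ‖x‖ → ‖x‖ ≤ b →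
      |m x| ≤ C ∧ ‖fderiv ℝ m x‖ ≤ C) (ht : 0 < t) :
    IntegrableOn (fun x => m x * u x * ‖gradient u x‖ ^ 2) (At u φ t) ∧
    IntegrableOn (fun x => fderiv ℝ m x (gradient u x) * u x ^ 2) (At u φ t) := by
  obtain ⟨K, hK⟩ := hφ.bd
  obtain ⟨a, b, ha, hs⟩ := At_ann hφ
  obtain ⟨C, hC⟩ := hb a b ha
  obtain ⟨L, -, hL, -⟩ := h.lip.bdd
  have hu := h.lip.continuous
  have hA := measurableSet_At hu hφ t
  have hsub : At u φ t ⊆ {x | 0 < u x} := fun x hx => hx.1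
  have cm : ContinuousOn m {x | 0 < u x} := fun x hx => (hm x hx).continuousAt.continuousWithinAt
  have b1 : ∀ x ∈ At u φ t, |u x| ≤ t * K := fun x hx => by
    rw [abs_of_pos hx.1]
    exact hx.2.trans (mul_le_mul_of_nonneg_left ((le_abs_self _).trans (hK x hx.1).1) ht.le)
  have b2 : ∀ x, ‖gradient u x‖ ≤ L := fun x => by rw [norm_gradient]; exact hL x
  constructor
  · refine stab2_io hA (((cm.mul hu.continuousOn).mul ((stab2_cg h).norm.pow 2)).mono hsub)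
      (C := C * (t * K) * L ^ 2) (b := b) (fun x hx => ?_)
      fun x hx hx' => absurd (hs t x hx).2 (not_le.2 hx')
    refine stab2_mul (stab2_mul (hC x hx.1 (hs t x hx).1 (hs t x hx).2).1 (b1 x hx)) ?_
    rw [abs_of_nonneg (by positivity)]
    exact pow_le_pow_left₀ (norm_nonneg _) (b2 x) 2
  · refine stab2_io hA ((((stab2_cd hm).clm_apply (stab2_cg h)).mul
      (hu.continuousOn.pow 2)).mono hsub) (C := C * L * (t * K) ^ 2) (b := b) (fun x hx => ?_)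
      fun x hx hx' => absurd (hs t x hx).2 (not_le.2 hx')
    refine stab2_mul (stab2_app (hC x hx.1 (hs t x hx).1 (hs t x hx).2).2 (b2 x)) ?_
    rw [abs_pow]
    exact pow_le_pow_left₀ (abs_nonneg _) (b1 x hx) 2

theorem stab_int (h : Mn u) (hφ : Test u φ) (hm : ∀ x, 0 < u x → ContDiffAt ℝ 1 m x)
    (hb : ∀ a b : ℝ, 0 < a → ∃ C : ℝ, ∀ x, 0 < u x → a ≤ ‖x‖ → ‖x‖ ≤ b →
      |m x| ≤ C ∧ ‖fderiv ℝ m x‖ ≤ C) :
    (∃ C : ℝ, ∀ x, 0 < u x → |fderiv ℝ (fun y => m y * φ y ^ 2) x (gradient u x)| ≤ C) ∧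
    IntegrableOn (fun x => fderiv ℝ (fun y => m y * φ y ^ 2) x (gradient u x)) {x | 0 < u x} := by
  obtain ⟨C, hC, -⟩ := stab2_b1 hφ hm hb
  obtain ⟨L, -, hL, -⟩ := h.lip.bdd
  obtain ⟨a, b, -, hs⟩ := hφ.supp
  have b1 : ∀ x, 0 < u x → |fderiv ℝ (fun y => m y * φ y ^ 2) x (gradient u x)| ≤ C * L :=
    fun x hx => stab2_app (hC x hx) (by rw [norm_gradient]; exact hL x)
  refine ⟨⟨_, b1⟩, stab2_io (isOpen_lt continuous_const h.lip.continuous).measurableSet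
    ((stab2_cd fun x hx => (hm x hx).mul ((hφ.sm x hx).pow 2)).clm_apply (stab2_cg h)) b1
    (b := b) fun x hx hx' => ?_⟩
  rw [(stab2_d ((hm x hx).differentiableAt one_ne_zero)
    ((hφ.sm x hx).differentiableAt one_ne_zero)).fderiv, hs x hx (Or.inr hx'.le), zero_smul]
  rfl
theorem stab_id (h : Mn u) (hφ : Test u φ) (hm : ∀ x, 0 < u x → ContDiffAt ℝ 1 m x)
    (hb : ∀ a b : ℝ, 0 < a → ∃ C : ℝ, ∀ x, 0 < u x → a ≤ ‖x‖ → ‖x‖ ≤ b →
      |m x| ≤ C ∧ ‖fderiv ℝ m x‖ ≤ C) (ht : 0 < t) :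
    IntegrableOn (fun x => m x * u x * ‖gradient u x‖ ^ 2) (At u φ t) ∧
    IntegrableOn (fun x => fderiv ℝ m x (gradient u x) * u x ^ 2) (At u φ t) ∧
    ∫ x in {x | 0 < u x}, fderiv ℝ (fun y => m y * φ y ^ 2) x (gradient u x) =
      (∫ x in At u φ t, fderiv ℝ (fun y => m y * φ y ^ 2) x (gradient u x)) -
        (∫ x in At u φ t, fderiv ℝ m x (gradient u x) * u x ^ 2) / t ^ 2 -
        2 * (∫ x in At u φ t, m x * u x * ‖gradient u x‖ ^ 2) / t ^ 2 := by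
  obtain ⟨i1, i2⟩ := stab2_i h hφ hm hb ht
  refine ⟨i1, i2, ?_⟩
  have i3 := (stab_int h hφ hm hb).2
  obtain ⟨l1, C, hC⟩ := stab2_lip h hφ hm hb ht
  have l2 := (stab2_lip (m := fun _ => 1) h hφ (fun _ _ => contDiffAt_const)
    (fun _ _ _ => ⟨1, fun _ _ _ _ => by simp⟩) ht).1
  simp only [one_mul] at l2
  obtain ⟨a, b, -, hs⟩ := hφ.supp
  have hu := h.lip.continuous
  have hA := measurableSet_At hu hφ t
  have hO : MeasurableSet {x | 0 < u x} := (isOpen_lt continuous_const hu).measurableSet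
  have hsub : At u φ t ⊆ {x | 0 < u x} := fun x hx => hx.1
  have h0 : ∀ x, b ≤ ‖x‖ → m x * stab2_k u φ t x = 0 := fun x hx => by
    rw [stab2_k]
    split_ifs with h1
    · rw [hs x h1 (Or.inr hx), min_eq_left (by simpa using sq_nonneg _)]
      simp
    · exact mul_zero _
  have i4 := integrable_dot h.lip.loc l1 h0
  have e1 := h.outer l1 h0 hC
  rw [← setIntegral_eq_integral_of_forall_compl_eq_zero (s := {x | 0 < u x}) fun x hx => by
    rw [dot_eq, fderiv_zero_of_zero h.nn (le_antisymm (not_lt.1 hx) (h.nn x))]; rfl] at e1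
  have e2 := setIntegral_sdiff hA i4.integrableOn hsub
  have e3 := setIntegral_sdiff hA i3 hsub
  have e4 : ∫ x in {x | 0 < u x} \ At u φ t, dot u (fun y => m y * stab2_k u φ t y) x =
      ∫ x in {x | 0 < u x} \ At u φ t, fderiv ℝ (fun y => m y * φ y ^ 2) x (gradient u x) := by
    refine setIntegral_congr_fun (hO.diff hA) fun x hx => ?_
    have e : (fun y => m y * stab2_k u φ t y) =ᶠ[𝓝 x] fun y => m y * φ y ^ 2 := by
      filter_upwards [stab2_off hu hφ ht hx.1 hx.2] with y hy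
      rw [hy]
    rw [dot_comm, dot_eq, e.fderiv_eq]
  have e5 : ∫ x in At u φ t, dot u (fun y => m y * stab2_k u φ t y) x =
      (∫ x in At u φ t, fderiv ℝ m x (gradient u x) * u x ^ 2) / t ^ 2 +
        2 * (∫ x in At u φ t, m x * u x * ‖gradient u x‖ ^ 2) / t ^ 2 := by
    rw [← integral_const_mul, ← integral_div, ← integral_div,
      ← integral_add (i2.div_const _) ((i1.const_mul 2).div_const _)]
    refine setIntegral_congr_ae hA ?_
    filter_upwards [Lip.ae_diff l2] with x hx hx'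
    exact stab2_dk h ht hx' ((hm x hx'.1).differentiableAt one_ne_zero) hx
  linarith

end Vale.Agent.P098
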