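import Vale.Agent.P098.B.Stab2

/-!
# P098 B/Stab3  (helper names start with stab3_)

The stability inequality.  `mc_bd`: `fderiv (mc u) x v = D3 u x v p p + D2 u x (∇p v) p + D2 u x p (∇p v)`, `p = gradient u`, `‖fderiv p x‖ = ‖D2 u x‖` (`⟪fderiv p x v, w⟫ = D2 u x v w`).
`Mn.cone`: write `V t = volume (At u φ t) → 0` (`tendsto_At`), `0 < u ≤ C t` on `At`.  (1) `stab_id` with `m = 1` and `BC.g1` (`‖p‖ ≥ 1 / 2`) give `∫_At u ≤ K t ^ 2` for small `t`.
(2) `stab_id` with `m = mc u`: the first two terms are `O (V t)`; for the third, by `BC.g2`, `-2 m u ‖p‖ ^ 2 = -2 m u + 2 m u (1 - ‖p‖ ^ 2) ≤ (1 - ‖p‖ ^ 2) + ε u + K' u ^ 2`, then `stab_raw` and (1); let `t → 0`, `ε → 0`.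
-/

set_option maxSynthPendingDepth 3

open MeasureTheory Filter Topology Set Metric
open scoped ContDiff RealInnerProductSpace NNReal

noncomputable section

namespace Vale.Agent.P098

variable {d : ℕ}

variable {u : E d → ℝ}

theorem mc_sm (hp : PreCone u) (x : E d) (hx : 0 < u x) : ContDiffAt ℝ 1 (mc u) x := by
  have h := (hp.harm x hx).1
  have h2 := contDiffAt_D2 h
  have h3 := contDiffAt_gradient h
  have h4 : ContDiffAt ℝ ∞ (fun y => D2 u y (gradient u y) (gradient u y)) x :=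
    (h2.clm_apply h3).clm_apply h3
  exact h4.of_le (by exact_mod_cast le_top)

theorem stab3_grad {x : E d} (h : ContDiffAt ℝ ∞ u x) (v : E d) :
    ‖fderiv ℝ (gradient u) x v‖ ≤ ‖D2 u x‖ * ‖v‖ := by
  have h3 : DifferentiableAt ℝ (gradient u) x :=
    (contDiffAt_gradient h).differentiableAt (by simp)
  set w := fderiv ℝ (gradient u) x v with hw
  have e1 : D2 u x v w = ‖w‖ ^ 2 := by
    rw [D2_apply (h.of_le calc_le2)]
    have e2 : (fun y => fderiv ℝ u y w) = fun y => innerSL ℝ w (gradient u y) := by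
      funext y
      rw [← inner_gradient, innerSL_apply_apply, real_inner_comm]
    rw [e2]
    have e3 := ((innerSL ℝ w).hasFDerivAt.comp x h3.hasFDerivAt).fderiv
    have e4 : fderiv ℝ (fun y => innerSL ℝ w (gradient u y)) x =
        (innerSL ℝ w).comp (fderiv ℝ (gradient u) x) := e3
    rw [e4, ContinuousLinearMap.comp_apply, innerSL_apply_apply, ← hw, real_inner_self_eq_norm_sq]
  have e5 := abs_B2_le (D2 u x) v w
  rw [e1, abs_of_nonneg (sq_nonneg _)] at e5
  rcases eq_or_lt_of_le (norm_nonneg w) with h0 | h0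
  · rw [← h0]; positivity
  · have : ‖w‖ * ‖w‖ ≤ (‖D2 u x‖ * ‖v‖) * ‖w‖ := by nlinarith
    exact le_of_mul_le_mul_right this h0

theorem stab3_fd {x : E d} (h : ContDiffAt ℝ ∞ u x) (v : E d) :
    fderiv ℝ (mc u) x v = D3 u x v (gradient u x) (gradient u x) +
      D2 u x (fderiv ℝ (gradient u) x v) (gradient u x) +
      D2 u x (gradient u x) (fderiv ℝ (gradient u) x v) := by
  have h2 : DifferentiableAt ℝ (D2 u) x := (contDiffAt_D2 h).differentiableAt (by simp)
  have h3 : DifferentiableAt ℝ (gradient u) x :=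
    (contDiffAt_gradient h).differentiableAt (by simp)
  have h4 := (h2.hasFDerivAt.clm_apply h3.hasFDerivAt).clm_apply h3.hasFDerivAt
  have h5 : fderiv ℝ (mc u) x = _ := h4.fderiv
  rw [h5]
  simp only [add_apply, ContinuousLinearMap.comp_apply,
    ContinuousLinearMap.flip_apply, D3]
  ring
theorem mc_bd (hp : PreCone u) (a b : ℝ) (ha : 0 < a) : ∃ C : ℝ, ∀ x, 0 < u x → a ≤ ‖x‖ → ‖x‖ ≤ b →
    |mc u x| ≤ C ∧ ‖fderiv ℝ (mc u) x‖ ≤ C := by
  obtain ⟨L, hL0, hL, -⟩ := hp.lip.bdd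
  obtain ⟨C, hC⟩ := hp.bd
  have hA : ∀ x, 0 < u x → a ≤ ‖x‖ → ‖D2 u x‖ ≤ C / a := by
    intro x hx h1
    rw [le_div_iff₀ ha]
    have := (hC x hx).1
    have := norm_nonneg (D2 u x)
    nlinarith
  have hB : ∀ x, 0 < u x → a ≤ ‖x‖ → ‖D3 u x‖ ≤ C / a ^ 2 := by
    intro x hx h1
    rw [le_div_iff₀ (by positivity)]
    have h2 := (hC x hx).2
    have h3 := norm_nonneg (D3 u x)
    have h4 : a ^ 2 ≤ ‖x‖ ^ 2 := by gcongr
    nlinarith
  refine ⟨max (C / a * L * L) (C / a ^ 2 * L * L + C / a * (C / a) * L + C / a * L * (C / a)),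
    fun x hx h1 _ => ?_⟩
  have h2 := hA x hx h1
  have h3 := hB x hx h1
  have h4 : ‖gradient u x‖ ≤ L := by rw [norm_gradient]; exact hL x
  have h5 : 0 ≤ C / a := (norm_nonneg _).trans h2
  have h6 : 0 ≤ C / a ^ 2 := (norm_nonneg _).trans h3
  refine ⟨le_max_of_le_left ?_, le_max_of_le_right ?_⟩
  · refine (abs_B2_le _ _ _).trans ?_
    gcongr
  · refine ContinuousLinearMap.opNorm_le_bound _ (by positivity) fun v => ?_
    have hs := (hp.harm x hx).1
    have h7 : ‖fderiv ℝ (gradient u) x v‖ ≤ C / a * ‖v‖ :=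
      (stab3_grad hs v).trans (by gcongr)
    rw [stab3_fd hs, Real.norm_eq_abs]
    have b1 : |D3 u x v (gradient u x) (gradient u x)| ≤ C / a ^ 2 * ‖v‖ * L * L :=
      (abs_B3_le _ _ _ _).trans (by gcongr)
    have b2 : |D2 u x (fderiv ℝ (gradient u) x v) (gradient u x)| ≤ C / a * (C / a * ‖v‖) * L :=
      (abs_B2_le _ _ _).trans (by gcongr)
    have b3 : |D2 u x (gradient u x) (fderiv ℝ (gradient u) x v)| ≤ C / a * L * (C / a * ‖v‖) :=
      (abs_B2_le _ _ _).trans (by gcongr)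
    refine (abs_add_three _ _ _).trans ?_
    calc _ ≤ C / a ^ 2 * ‖v‖ * L * L + C / a * (C / a * ‖v‖) * L + C / a * L * (C / a * ‖v‖) :=
          add_le_add (add_le_add b1 b2) b3
      _ = _ := by ring

theorem stab3_fin {φ : E d → ℝ} (hφ : Test u φ) (t : ℝ) : volume (At u φ t) < ⊤ := by
  obtain ⟨a, b, -, hab⟩ := At_ann hφ
  refine lt_of_le_of_lt (measure_mono fun x hx => ?_)
    (measure_closedBall_lt_top (x := (0 : E d)) (r := b))
  exact mem_closedBall_zero_iff.2 (hab t x hx).2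

/-- The weighted mass of the strips is quadratic in `t`. -/
theorem stab3_mass (h : Mn u) {φ : E d → ℝ} (hφ : Test u φ) : ∃ K : ℝ, 0 ≤ K ∧ ∀ t : ℝ, 0 < t →
    IntegrableOn (fun x => u x * ‖gradient u x‖ ^ 2) (At u φ t) ∧
    ∫ x in At u φ t, u x * ‖gradient u x‖ ^ 2 ≤ K * t ^ 2 := by
  have hm : ∀ x, 0 < u x → ContDiffAt ℝ 1 (fun _ : E d => (1 : ℝ)) x := fun _ _ => contDiffAt_const
  have hb : ∀ a b : ℝ, 0 < a → ∃ C : ℝ, ∀ x, 0 < u x → a ≤ ‖x‖ → ‖x‖ ≤ b →
      |(fun _ : E d => (1 : ℝ)) x| ≤ C ∧ ‖fderiv ℝ (fun _ : E d => (1 : ℝ)) x‖ ≤ C :=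
    fun _ _ _ => ⟨1, fun _ _ _ _ => by simp⟩
  obtain ⟨-, hi⟩ := stab_int h hφ hm hb
  set F : E d → ℝ := fun x => fderiv ℝ (fun y => (fun _ : E d => (1 : ℝ)) y * φ y ^ 2) x
    (gradient u x) with hF
  refine ⟨∫ x in {x | 0 < u x}, |F x|, integral_nonneg fun _ => abs_nonneg _, fun t ht => ?_⟩
  obtain ⟨i1, -, e⟩ := stab_id h hφ hm hb ht
  simp only [one_mul, fderiv_fun_const, Pi.zero_apply, zero_apply, zero_mul,
    integral_zero, zero_div, sub_zero] at i1 e
  refine ⟨i1, ?_⟩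
  have hsub : At u φ t ⊆ {x | 0 < u x} := fun x hx => hx.1
  have b1 : |∫ x in {x | 0 < u x}, F x| ≤ ∫ x in {x | 0 < u x}, |F x| := abs_integral_le_integral_abs
  have b2 : |∫ x in At u φ t, F x| ≤ ∫ x in {x | 0 < u x}, |F x| :=
    abs_integral_le_integral_abs.trans
      (setIntegral_mono_set hi.abs (Eventually.of_forall fun _ => abs_nonneg _) hsub.eventuallyLE)
  have e' : ∫ x in {x | 0 < u x}, F x = (∫ x in At u φ t, F x) -
      2 * (∫ x in At u φ t, u x * ‖gradient u x‖ ^ 2) / t ^ 2 := by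
    simpa only [hF, one_mul] using e
  have b3 : (∫ x in At u φ t, u x * ‖gradient u x‖ ^ 2) / t ^ 2 ≤ ∫ x in {x | 0 < u x}, |F x| := by
    have := abs_le.1 b1
    have := abs_le.1 b2
    rw [mul_div_assoc] at e'
    linarith
  rwa [div_le_iff₀ (by positivity)] at b3
theorem Mn.cone (h : Mn u) (hp : PreCone u) : Cone u := by
  refine ⟨hp, fun φ hφ => ?_⟩
  have hu := h.lip.continuous
  obtain ⟨K, hK0, hK⟩ := stab3_mass h hφ
  obtain ⟨a, b, ha, hab⟩ := At_ann hφ
  obtain ⟨L, hL0, hL, -⟩ := h.lip.bdd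
  obtain ⟨C, hC⟩ := hφ.bd
  obtain ⟨M, hM⟩ := mc_bd hp a b ha
  obtain ⟨⟨N, hN⟩, -⟩ := stab_int h hφ (mc_sm hp) (mc_bd hp)
  set I := ∫ x in {x | 0 < u x}, ‖fderiv ℝ φ x‖ ^ 2 with hI
  set J := ∫ x in {x | 0 < u x}, fderiv ℝ (fun y => mc u y * φ y ^ 2) x (gradient u x) with hJ
  have key : ∀ ε : ℝ, 0 < ε → J ≤ I + ε * K := by
    intro ε hε
    obtain ⟨δ, hδ, hbc⟩ := hp.bc ε hε a b ha
    have hlim : Tendsto (fun t : ℝ => (N + M * L * C ^ 2) * (volume (At u φ t)).toReal + (I + ε * K))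
        (𝓝[>] 0) (𝓝 ((N + M * L * C ^ 2) * 0 + (I + ε * K))) :=
      ((tendsto_At hu hφ).const_mul _).add_const _
    rw [mul_zero, zero_add] at hlim
    refine ge_of_tendsto hlim ?_
    have hev : ∀ᶠ t : ℝ in 𝓝[>] 0, t < δ / (|C| + 1) :=
      mem_nhdsWithin_of_mem_nhds (Iio_mem_nhds (by positivity))
    filter_upwards [hev, self_mem_nhdsWithin] with t ht1 ht
    have ht : 0 < t := ht
    have hms := measurableSet_At hu hφ t
    have hfin := stab3_fin hφ t
    obtain ⟨i1, -, e⟩ := stab_id h hφ (mc_sm hp) (mc_bd hp) ht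
    obtain ⟨i2, k2⟩ := hK t ht
    have hle : ∀ x ∈ At u φ t, u x ≤ t * C := fun x hx =>
      hx.2.trans (mul_le_mul_of_nonneg_left ((le_abs_self _).trans (hC x hx.1).1) ht.le)
    have b1 : ‖∫ x in At u φ t, fderiv ℝ (fun y => mc u y * φ y ^ 2) x (gradient u x)‖ ≤
        N * (volume (At u φ t)).toReal :=
      norm_setIntegral_le_of_norm_le_const hfin fun x hx => hN x hx.1
    have b2 : ‖∫ x in At u φ t, fderiv ℝ (mc u) x (gradient u x) * u x ^ 2‖ ≤
        (M * L * (t * C) ^ 2) * (volume (At u φ t)).toReal := by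
      refine norm_setIntegral_le_of_norm_le_const hfin fun x hx => ?_
      have c1 := (hM x hx.1 (hab t x hx).1 (hab t x hx).2).2
      have c2 : ‖gradient u x‖ ≤ L := by rw [norm_gradient]; exact hL x
      have c3 : 0 ≤ M := (norm_nonneg _).trans c1
      have c4 := hle x hx
      have c5 := hx.1.le
      rw [norm_mul, Real.norm_of_nonneg (sq_nonneg (u x))]
      refine mul_le_mul ((ContinuousLinearMap.le_opNorm _ _).trans ?_) ?_ (sq_nonneg _)
        (by positivity)
      · gcongr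
      · gcongr
    have i3 : IntegrableOn (fun x => 1 - ‖gradient u x‖ ^ 2) (At u φ t) := by
      refine Measure.integrableOn_of_bounded (M := 1 + L ^ 2) hfin.ne ?_
        (Eventually.of_forall fun x => ?_)
      · simp only [norm_gradient]
        exact (measurable_const.sub
          ((measurable_fderiv ℝ u).norm.pow_const 2)).aestronglyMeasurable
      · have c2 : ‖gradient u x‖ ≤ L := by rw [norm_gradient]; exact hL x
        have c3 : ‖gradient u x‖ ^ 2 ≤ L ^ 2 := by gcongr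
        have c4 := sq_nonneg ‖gradient u x‖
        rw [Real.norm_eq_abs, abs_le]
        constructor <;> linarith
    have b3 : -2 * (∫ x in At u φ t, mc u x * u x * ‖gradient u x‖ ^ 2) ≤
        (∫ x in At u φ t, (1 - ‖gradient u x‖ ^ 2)) +
          ε * ∫ x in At u φ t, u x * ‖gradient u x‖ ^ 2 := by
      have i4 : Integrable (fun x => ε * (u x * ‖gradient u x‖ ^ 2))
        (volume.restrict (At u φ t)) := i2.const_mul ε
      have i5 : Integrable (fun x => -2 * (mc u x * u x * ‖gradient u x‖ ^ 2))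
        (volume.restrict (At u φ t)) := i1.const_mul _
      rw [← integral_const_mul, ← integral_const_mul, ← integral_add i3 i4]
      refine setIntegral_mono_on i5 (i3.add i4) hms fun x hx => ?_
      have c1 : u x < δ := by
        have c2 : t * (|C| + 1) < δ := (lt_div_iff₀ (by positivity)).1 ht1
        have c3 : t * C ≤ t * |C| := mul_le_mul_of_nonneg_left (le_abs_self C) ht.le
        have c4 := hle x hx
        nlinarith
      have c5 := (abs_le.1 (hbc x (hab t x hx).1 (hab t x hx).2 hx.1 c1).g2).1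
      have c6 := sq_nonneg ‖gradient u x‖
      generalize ‖gradient u x‖ ^ 2 = q at c5 c6 ⊢
      have c7 : -(ε * u x) * q ≤ (1 - q + 2 * mc u x * u x) * q :=
        mul_le_mul_of_nonneg_right c5 c6
      nlinarith [sq_nonneg (1 - q)]
    have b4 := stab_raw h hφ ht
    have ht2 : 0 < t ^ 2 := by positivity
    rw [Real.norm_eq_abs] at b1 b2
    have b5 : -((∫ x in At u φ t, fderiv ℝ (mc u) x (gradient u x) * u x ^ 2) / t ^ 2) ≤
        M * L * C ^ 2 * (volume (At u φ t)).toReal := by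
      rw [← neg_div, div_le_iff₀ ht2]
      refine (neg_le_abs _).trans (b2.trans (le_of_eq ?_))
      ring
    have b6 : -(2 * (∫ x in At u φ t, mc u x * u x * ‖gradient u x‖ ^ 2) / t ^ 2) ≤ I + ε * K := by
      rw [← neg_div, div_le_iff₀ ht2]
      have := mul_le_mul_of_nonneg_left k2 hε.le
      nlinarith
    have b7 := (le_abs_self _).trans b1
    rw [hJ, e]
    nlinarith
  refine le_of_forall_pos_le_add fun η hη => ?_
  have := key (η / (K + 1)) (by positivity)
  have h2 : η / (K + 1) * K ≤ η := by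
    rw [div_mul_eq_mul_div, div_le_iff₀ (by positivity)]
    nlinarith
  linarith

end Vale.Agent.P098
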