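import Vale.Agent.P098.B.Var

/-!
# P098 B/Sub  (helper names start with sub_)

Comparison with subsolutions.  `g = D.indicator (max (v - u) 0)` is Lipschitz (`lip_indicator`), `Mn.var` with `ψ = g`, `ibp_lap`: `∫ dot v g = -∫ lap v * g`.  Almost everywhere
`2 dot u g + ‖∇g‖ ^ 2 + (indicator difference) ≤ 2 dot v g`: where `g > 0` (an open set on which `g = v - u` near the point, because `g > 0` forces membership in `D` and `u < v`) `∇g = ∇v - ∇u`, and if moreover `u = 0` then `∇u = 0` (`fderiv_zero_of_zero`);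
where `g = 0`, `∇g = 0`.  So `∫ lap v * g ≤ 0` with a continuous nonnegative integrand, which therefore vanishes (`Continuous.integral_pos_of_hasCompactSupport_nonneg_nonzero` or `integral_eq_zero_iff_of_nonneg`).
-/

set_option maxSynthPendingDepth 3

open MeasureTheory Filter Topology Set Metric
open scoped ContDiff RealInnerProductSpace NNReal

noncomputable section

namespace Vale.Agent.P098

variable {d : ℕ}

theorem sub_pt {u v g : E d → ℝ} {x : E d} (hn : ∀ y, 0 ≤ u y) (hg0 : ∀ y, 0 ≤ g y)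
    (hgc : Continuous g) (hg : ∀ y, 0 < g y → g y = v y - u y) (hu : DifferentiableAt ℝ u x)
    (hv : DifferentiableAt ℝ v x) (h3 : 0 < g x → u x = 0 → 0 < v x → 1 ≤ ‖fderiv ℝ v x‖ ^ 2) :
    2 * dot u g x + ‖fderiv ℝ g x‖ ^ 2 +
      ((if 0 < u x + g x then 1 else 0) - if 0 < u x then 1 else 0 : ℝ) ≤ 2 * dot v g x := by
  rcases (hg0 x).eq_or_lt with h0 | h0
  · have h1 := fderiv_zero_of_zero hg0 h0.symm
    simp [dot, h1, ← h0]
  · have e : g =ᶠ[𝓝 x] fun y => v y - u y :=
      ((isOpen_lt continuous_const hgc).eventually_mem h0).mono fun y hy => hg y hy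
    have h1 : fderiv ℝ g x = fderiv ℝ v x - fderiv ℝ u x := by
      rw [e.fderiv_eq, fderiv_fun_sub hv hu]
    have h2 : dot v g x = dot u g x + ‖fderiv ℝ g x‖ ^ 2 := by
      rw [← dot_self, dot, dot, dot, ← Finset.sum_add_distrib]
      refine Finset.sum_congr rfl fun i _ => ?_
      rw [h1, sub_apply]
      ring
    have h4 : ((if 0 < u x + g x then 1 else 0) - if 0 < u x then 1 else 0 : ℝ) ≤
        ‖fderiv ℝ g x‖ ^ 2 := by
      rcases (hn x).eq_or_lt with h5 | h5
      · have h6 := hg x h0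
        have h7 := h3 h0 h5.symm (by linarith)
        rw [h1, fderiv_zero_of_zero hn h5.symm, sub_zero, ← h5, zero_add, if_pos h0,
          if_neg (lt_irrefl _), sub_zero]
        exact h7
      · rw [if_pos h5, if_pos (add_pos h5 h0), sub_self]
        positivity
    linarith

theorem Mn.sub {u v : E d → ℝ} (h : Mn u) {D : Set (E d)} (hD : IsCompact D) (hv : ContDiff ℝ 2 v)
    (h1 : ∀ x ∈ frontier D, v x ≤ u x) (h2 : ∀ x ∈ D, u x < v x → 0 < lap v x)
    (h3 : ∀ᵐ x, x ∈ D → u x = 0 → 0 < v x → 1 ≤ ‖fderiv ℝ v x‖ ^ 2) : ∀ x ∈ D, v x ≤ u x := by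
  have hvl : LocallyLipschitz v := (hv.of_le one_le_two).locallyLipschitz
  have hg : Lip (D.indicator fun x => max (v x - u x) 0) :=
    lip_indicator hD ((hvl.sub h.lip.loc).max_const 0)
      fun x hx => max_eq_right (sub_nonpos.2 (h1 x hx))
  obtain ⟨g, hge⟩ : ∃ g, g = D.indicator fun x => max (v x - u x) 0 := ⟨_, rfl⟩
  rw [← hge] at hg
  have g0 : ∀ x, 0 ≤ g x := fun x => by
    rw [hge]
    exact indicator_nonneg (fun y _ => le_max_right _ _) x
  have g1 : ∀ x ∈ D, g x = max (v x - u x) 0 := fun x hx => by rw [hge, indicator_of_mem hx]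
  have g2 : ∀ x, 0 < g x → x ∈ D ∧ g x = v x - u x := by
    intro x hx
    have hx' : x ∈ D := by
      by_contra hc
      rw [hge, indicator_of_notMem hc] at hx
      exact lt_irrefl _ hx
    refine ⟨hx', ?_⟩
    rw [g1 x hx'] at hx ⊢
    exact max_eq_left ((lt_max_iff.1 hx).resolve_right (lt_irrefl _)).le
  obtain ⟨R, hR⟩ := hD.isBounded.subset_ball (0 : E d)
  have g3 : ∀ x, R ≤ ‖x‖ → g x = 0 := fun x hx => by
    rw [hge]
    exact indicator_of_notMem (fun hc => (mem_ball_zero_iff.1 (hR hc)).not_ge hx) _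
  have k1 := h.var hg g3 fun x => add_nonneg (h.nn x) (g0 x)
  obtain ⟨i0, k2⟩ := ibp_lap hv hg g3
  have i1 := (integrable_dot h.lip.loc hg g3).const_mul 2
  have i2 := integrable_sq hg g3
  have i3 := integrable_ind h.lip.continuous hg.continuous g3
  have i4 := (integrable_dot hvl hg g3).const_mul 2
  have i5 : Integrable fun x => 2 * dot u g x + ‖fderiv ℝ g x‖ ^ 2 := i1.add i2
  have k3 : ∫ x, (2 * dot u g x + ‖fderiv ℝ g x‖ ^ 2 +
      ((if 0 < u x + g x then 1 else 0) - if 0 < u x then 1 else 0 : ℝ)) ≤ ∫ x, 2 * dot v g x := by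
    refine integral_mono_ae (i5.add i3) i4 ?_
    filter_upwards [h.lip.ae_diff, h3] with x a1 a2
    exact sub_pt h.nn g0 hg.continuous (fun y hy => (g2 y hy).2) a1
      (hv.differentiable (by simp) x) fun hx => a2 (g2 x hx).1
  rw [integral_add i5 i3, integral_add i1 i2, integral_const_mul, integral_const_mul, k2] at k3
  have p0 : ∀ x, 0 < g x → 0 < lap v x * g x := fun x hx =>
    mul_pos (h2 x (g2 x hx).1 (by linarith [(g2 x hx).2])) hx
  have p1 : (0 : E d → ℝ) ≤ fun x => lap v x * g x := fun x => by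
    rcases (g0 x).eq_or_lt with a | a
    · simp [← a]
    · exact (p0 x a).le
  have k4 : ∫ x, lap v x * g x = 0 := le_antisymm (by linarith) (integral_nonneg p1)
  have c1 : Continuous fun x => lap v x * g x := (continuous_lap hv).mul hg.continuous
  rw [integral_eq_zero_iff_of_nonneg p1 i0, Continuous.ae_eq_iff_eq volume c1 continuous_zero] at k4
  intro x hx
  by_contra hc
  have a : 0 < g x := by
    rw [g1 x hx]
    exact lt_max_of_lt_left (sub_pos.2 (not_le.1 hc))
  exact (p0 x a).ne' (congrFun k4 x)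

end Vale.Agent.P098
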