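import Vale.Agent.P098.B.Var

/-!
# P098 B/Super  (helper names start with super_)

Comparison with supersolutions.  `g = D.indicator (max (u - max v 0) 0)`, `Mn.var` with `ψ = -g`, `ibp_lap`.  Almost everywhere `-2 dot u g + ‖∇g‖ ^ 2 + (indicator difference) ≤ -2 dot v g + G`, where `G = ‖∇v‖ ^ 2 - 1` on `A₀ = {g > 0, v ≤ 0}` and `G = 0` elsewhere:
on `{g > 0, v > 0}` `g = u - v` near the point; on `A₀`, `g = u` and `∇g = ∇u` a.e. (`ae_fderiv_eq`), `-‖p‖ ^ 2 + 2 p q ≤ ‖q‖ ^ 2`; where `g = 0`, `∇g = 0` (`fderiv_zero_of_zero`).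
So `0 ≤ ∫ (2 lap v * g + G)` while the integrand is negative on the open set `{g > 0}` and zero elsewhere; hence the set is null (`integral_eq_zero_iff_of_nonneg`) and empty (`IsOpen.measure_eq_zero_iff`).
-/

set_option maxSynthPendingDepth 3

open MeasureTheory Filter Topology Set Metric
open scoped ContDiff RealInnerProductSpace NNReal

noncomputable section

namespace Vale.Agent.P098

variable {d : ℕ}

theorem super_alg1 (p q : B1 d) :
    2 * ∑ i, p (bv i) * (q - p) (bv i) + ‖q - p‖ ^ 2 - 2 * ∑ i, q (bv i) * (q - p) (bv i) ≤ 0 := by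
  rw [← sum_sq_bv, Finset.mul_sum, Finset.mul_sum, ← Finset.sum_add_distrib,
    ← Finset.sum_sub_distrib]
  refine Finset.sum_nonpos fun i _ => ?_
  have : (q - p) (bv i) = q (bv i) - p (bv i) := rfl
  rw [this]
  nlinarith [sq_nonneg (q (bv i) - p (bv i))]

theorem super_alg2 (p q : B1 d) :
    2 * ∑ i, p (bv i) * (-p) (bv i) + ‖-p‖ ^ 2 - 2 * ∑ i, q (bv i) * (-p) (bv i) ≤ ‖q‖ ^ 2 := by
  rw [← sum_sq_bv, ← sum_sq_bv, Finset.mul_sum, Finset.mul_sum, ← Finset.sum_add_distrib,
    ← Finset.sum_sub_distrib]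
  refine Finset.sum_le_sum fun i _ => ?_
  have : (-p) (bv i) = -p (bv i) := rfl
  rw [this]
  nlinarith [sq_nonneg (q (bv i) - p (bv i))]

theorem super_pt {u v g : E d → ℝ} {D : Set (E d)} (hv : ContDiff ℝ 2 v) (hg : Continuous g)
    (hn : ∀ x, 0 ≤ g x) (hp : ∀ x, 0 < g x → x ∈ D ∧ g x = u x - max (v x) 0)
    (h2 : ∀ x ∈ D, 0 < v x → v x < u x → lap v x < 0)
    (h3 : ∀ x ∈ D, v x ≤ 0 → 0 < u x → ‖fderiv ℝ v x‖ ^ 2 + 2 * lap v x * u x < 1) {x : E d}
    (hu : DifferentiableAt ℝ u x) (he : g x = u x → fderiv ℝ g x = fderiv ℝ u x) :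
    (g x = 0 → 2 * dot u (fun y => -g y) x + ‖fderiv ℝ (fun y => -g y) x‖ ^ 2 +
      ((if 0 < u x + -g x then 1 else 0) - if 0 < u x then 1 else 0 : ℝ) -
      2 * (dot v (fun y => -g y) x + lap v x * -g x) = 0) ∧
    (0 < g x → 2 * dot u (fun y => -g y) x + ‖fderiv ℝ (fun y => -g y) x‖ ^ 2 +
      ((if 0 < u x + -g x then 1 else 0) - if 0 < u x then 1 else 0 : ℝ) -
      2 * (dot v (fun y => -g y) x + lap v x * -g x) < 0) := by
  have hneg : fderiv ℝ (fun y => -g y) x = -fderiv ℝ g x := fderiv_fun_neg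
  constructor
  · intro h0
    simp [dot, hneg, fderiv_zero_of_zero hn h0, h0]
  · intro h0
    obtain ⟨hD, hgx⟩ := hp x h0
    rcases lt_or_ge 0 (v x) with hvx | hvx
    · have e : (fun y => -g y) =ᶠ[𝓝 x] fun y => v y - u y := by
        filter_upwards [(isOpen_lt continuous_const hg).mem_nhds h0,
          (isOpen_lt continuous_const hv.continuous).mem_nhds hvx] with y hy hy'
        rw [(hp y hy).2, max_eq_left (le_of_lt hy')]
        ring
      have e' : fderiv ℝ (fun y => -g y) x = fderiv ℝ v x - fderiv ℝ u x := by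
        rw [e.fderiv_eq]
        exact fderiv_fun_sub (hv.differentiable (by norm_num) x) hu
      rw [max_eq_left hvx.le] at hgx
      have h4 := h2 x hD hvx (by linarith)
      have h5 := super_alg1 (fderiv ℝ u x) (fderiv ℝ v x)
      have h6 := mul_neg_of_neg_of_pos h4 h0
      rw [if_pos (by linarith), if_pos (by linarith), dot, dot, e']
      linarith
    · rw [max_eq_right hvx, sub_zero] at hgx
      have h4 := h3 x hD hvx (by linarith)
      have h5 := super_alg2 (fderiv ℝ u x) (fderiv ℝ v x)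
      rw [if_neg (by linarith), if_pos (by linarith), dot, dot, hneg, he hgx, hgx]
      linarith

theorem Mn.super {u v : E d → ℝ} (h : Mn u) {D : Set (E d)} (hD : IsCompact D) (hv : ContDiff ℝ 2 v)
    (h1 : ∀ x ∈ frontier D, u x ≤ max (v x) 0) (h2 : ∀ x ∈ D, 0 < v x → v x < u x → lap v x < 0)
    (h3 : ∀ x ∈ D, v x ≤ 0 → 0 < u x → ‖fderiv ℝ v x‖ ^ 2 + 2 * lap v x * u x < 1) :
    ∀ x ∈ D, u x ≤ max (v x) 0 := by
  set g : E d → ℝ := D.indicator fun x => max (u x - max (v x) 0) 0 with hg
  have hvl : LocallyLipschitz v := (hv.of_le (by norm_num : (1 : WithTop ℕ∞) ≤ 2)).locallyLipschitz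
  have hf : LocallyLipschitz fun x => max (u x - max (v x) 0) 0 :=
    (h.lip.loc.sub (hvl.max_const 0)).max_const 0
  have hgl : Lip g := lip_indicator hD hf fun x hx => max_eq_right (by linarith [h1 x hx])
  have hn : ∀ x, 0 ≤ g x := fun x => indicator_nonneg (fun _ _ => le_max_right _ _) x
  have hp : ∀ x, 0 < g x → x ∈ D ∧ g x = u x - max (v x) 0 := by
    intro x hx
    by_cases hxD : x ∈ D
    · refine ⟨hxD, ?_⟩
      rw [hg, indicator_of_mem hxD] at hx ⊢
      rcases le_total (u x - max (v x) 0) 0 with h0 | h0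
      · rw [max_eq_right h0] at hx
        exact absurd hx (lt_irrefl _)
      · exact max_eq_left h0
    · rw [hg, indicator_of_notMem hxD] at hx
      exact absurd hx (lt_irrefl _)
  have hψ : Lip fun x => -g x := by
    have := hgl.const_mul (-1)
    simpa using this
  obtain ⟨R, hR⟩ := hD.isBounded.subset_ball (0 : E d)
  have h0 : ∀ x, R ≤ ‖x‖ → -g x = 0 := by
    intro x hx
    rw [hg, indicator_of_notMem, neg_zero]
    intro hxD
    have := mem_ball_zero_iff.1 (hR hxD)
    linarith
  have hnn : ∀ x, 0 ≤ u x + -g x := by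
    intro x
    rcases eq_or_lt_of_le (hn x) with e | e
    · rw [← e]
      linarith [h.nn x]
    · rw [(hp x e).2]
      linarith [le_max_right (v x) 0]
  have hvar := h.var hψ h0 hnn
  obtain ⟨i5, hib⟩ := ibp_lap hv hψ h0
  have i1 := integrable_dot h.lip.loc hψ h0
  have i2 := integrable_sq hψ h0
  have i3 := integrable_ind h.lip.continuous hψ.continuous h0
  have i4 := integrable_dot hvl hψ h0
  set F : E d → ℝ := fun x => 2 * dot u (fun y => -g y) x + ‖fderiv ℝ (fun y => -g y) x‖ ^ 2 +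
      ((if 0 < u x + -g x then 1 else 0) - if 0 < u x then 1 else 0 : ℝ) -
      2 * (dot v (fun y => -g y) x + lap v x * -g x) with hF
  have j1 : Integrable fun x => 2 * dot u (fun y => -g y) x := i1.const_mul 2
  have j2 : Integrable fun x => 2 * dot u (fun y => -g y) x + ‖fderiv ℝ (fun y => -g y) x‖ ^ 2 :=
    j1.add i2
  have j3 : Integrable fun x => 2 * dot u (fun y => -g y) x + ‖fderiv ℝ (fun y => -g y) x‖ ^ 2 +
      ((if 0 < u x + -g x then 1 else 0) - if 0 < u x then 1 else 0 : ℝ) := j2.add i3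
  have j4 : Integrable fun x => dot v (fun y => -g y) x + lap v x * -g x := i4.add i5
  have j5 : Integrable fun x => 2 * (dot v (fun y => -g y) x + lap v x * -g x) := j4.const_mul 2
  have iF : Integrable F := j3.sub j5
  have hI : 0 ≤ ∫ x, F x := by
    simp only [hF]
    rw [integral_sub j3 j5, integral_add j2 i3, integral_add j1 i2, integral_const_mul,
      integral_const_mul, integral_add i4 i5, hib]
    linarith
  have hae : ∀ᵐ x, (g x = 0 → F x = 0) ∧ (0 < g x → F x < 0) := by
    filter_upwards [h.lip.ae_diff, ae_fderiv_eq hgl h.lip] with x hx hx'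
    exact super_pt hv hgl.continuous hn hp h2 h3 hx hx'
  have hF0 : 0 ≤ᵐ[volume] fun x => -F x := by
    filter_upwards [hae] with x hx
    rcases eq_or_lt_of_le (hn x) with e | e
    · simp [hx.1 e.symm]
    · have := hx.2 e
      simp only [Pi.zero_apply]
      linarith
  have hz : ∫ x, -F x = 0 := by
    refine le_antisymm ?_ (integral_nonneg_of_ae hF0)
    rw [integral_neg]
    linarith
  have hz' := (integral_eq_zero_iff_of_nonneg_ae hF0 iF.neg).1 hz
  have hnull : volume {x | 0 < g x} = 0 := by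
    rw [measure_eq_zero_iff_ae_notMem]
    filter_upwards [hae, hz'] with x hx hx' hx''
    have h4 := hx.2 hx''
    simp only [Pi.zero_apply] at hx'
    linarith
  have hem := (isOpen_lt continuous_const hgl.continuous).measure_eq_zero_iff volume |>.1 hnull
  intro x hx
  by_contra hc
  have : x ∈ {x | 0 < g x} := by
    show 0 < g x
    rw [hg, indicator_of_mem hx]
    exact lt_max_of_lt_left (by linarith [not_le.1 hc])
  rw [hem] at this
  exact this

end Vale.Agent.P098
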