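import Vale.Agent.P098.K.Weyl

/-!
# P098 B/Var  (helper names start with var_)

Outer variations.  `Mn.var`: competitor `u + ψ`, `norm_add_sq_B1` at points where both are differentiable.  `Mn.outer`: `± t ψ` with `t C < 1` keeps the positivity set, `t → 0`.
`Mn.harm`: a test function supported in `{u > 0}` satisfies `|φ| ≤ C u`; `ibp_test`, `weyl`.
-/

set_option maxSynthPendingDepth 3

open MeasureTheory Filter Topology Set Metric
open scoped ContDiff RealInnerProductSpace NNReal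

noncomputable section

namespace Vale.Agent.P098

variable {d : ℕ}

variable {u ψ : E d → ℝ} {R : ℝ}

theorem integrable_sq (hψ : Lip ψ) (h0 : ∀ x, R ≤ ‖x‖ → ψ x = 0) :
    Integrable fun x => ‖fderiv ℝ ψ x‖ ^ 2 := by
  exact (integrable_dot hψ.loc hψ h0).congr (ae_of_all _ (dot_self ψ))

theorem integrable_ind (hu : Continuous u) (hψ : Continuous ψ) (h0 : ∀ x, R ≤ ‖x‖ → ψ x = 0) :
    Integrable fun x => ((if 0 < u x + ψ x then 1 else 0) - if 0 < u x then 1 else 0 : ℝ) := by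
  refine integrable_of_bdd (C := 1) (R := R) (Measurable.aestronglyMeasurable
    ((Measurable.ite (measurableSet_lt measurable_const (hu.add hψ).measurable) measurable_const
      measurable_const).sub (Measurable.ite (measurableSet_lt measurable_const hu.measurable)
      measurable_const measurable_const))) (ae_of_all _ fun x _ => ?_) (ae_of_all _ fun x hx => ?_)
  · split_ifs <;> norm_num
  · rw [h0 x hx.le, add_zero, sub_self]

theorem fderiv_zero_of_zero (hn : ∀ x, 0 ≤ u x) {x : E d} (hx : u x = 0) : fderiv ℝ u x = 0 := by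
  refine IsLocalMin.fderiv_eq_zero (Eventually.of_forall fun y => ?_)
  rw [hx]
  exact hn y

theorem Mn.var (h : Mn u) (hψ : Lip ψ) (h0 : ∀ x, R ≤ ‖x‖ → ψ x = 0) (hn : ∀ x, 0 ≤ u x + ψ x) :
    0 ≤ 2 * (∫ x, dot u ψ x) + (∫ x, ‖fderiv ℝ ψ x‖ ^ 2) +
      ∫ x, ((if 0 < u x + ψ x then 1 else 0) - if 0 < u x then 1 else 0 : ℝ) := by
  have i1 := (integrable_dot h.lip.loc hψ h0).const_mul 2
  have i2 := integrable_sq hψ h0
  have i3 := integrable_ind h.lip.continuous hψ.continuous h0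
  rw [← integral_const_mul, ← integral_add i1 i2, ← integral_add (i1.fun_add i2) i3]
  refine (h.le _ (h.lip.add hψ) hn ⟨R, fun x hx => by rw [h0 x hx, add_zero]⟩).trans_eq
    (integral_congr_ae ?_)
  filter_upwards [h.lip.ae_diff, hψ.ae_diff] with x h1 h2
  simp only [en, dot, fderiv_fun_add h1 h2, norm_add_sq_B1]
  ring

theorem var_quad {I J δ : ℝ} (hδ : 0 < δ) (h : ∀ t : ℝ, |t| < δ → 0 ≤ 2 * (t * I) + t ^ 2 * J) :
    I = 0 := by
  have h1 : IsLocalMin (fun t : ℝ => 2 * (t * I) + t ^ 2 * J) 0 := by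
    filter_upwards [ball_mem_nhds (0 : ℝ) hδ] with t ht
    simpa using h t (by simpa using ht)
  have h2 : HasDerivAt (fun t : ℝ => 2 * (t * I) + t ^ 2 * J) _ 0 :=
    (((hasDerivAt_id (0 : ℝ)).mul_const I).const_mul 2).add ((hasDerivAt_pow 2 0).mul_const J)
  simpa using h1.hasDerivAt_eq_zero h2

theorem var_smul (u ψ : E d → ℝ) (t : ℝ) (x : E d) :
    dot u (fun y => t * ψ y) x = t * dot u ψ x ∧
      ‖fderiv ℝ (fun y => t * ψ y) x‖ ^ 2 = t ^ 2 * ‖fderiv ℝ ψ x‖ ^ 2 := by
  have e : fderiv ℝ (fun y => t * ψ y) x = t • fderiv ℝ ψ x := calc_smul ψ t x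
  refine ⟨?_, by rw [e, norm_smul, mul_pow, Real.norm_eq_abs, sq_abs]⟩
  simp only [dot, e, smul_apply, smul_eq_mul, Finset.mul_sum, mul_left_comm]

theorem Mn.outer (h : Mn u) (hψ : Lip ψ) (h0 : ∀ x, R ≤ ‖x‖ → ψ x = 0) {C : ℝ}
    (hC : ∀ x, |ψ x| ≤ C * u x) : ∫ x, dot u ψ x = 0 := by
  have hp : 0 < |C| + 1 := by positivity
  refine var_quad (J := ∫ x, ‖fderiv ℝ ψ x‖ ^ 2) (one_div_pos.2 hp) fun t ht => ?_
  have h1 : |t| * |C| < 1 := by
    have := (lt_div_iff₀ hp).1 ht
    linarith [abs_nonneg t]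
  have h2 : ∀ x, (1 - |t| * |C|) * u x ≤ u x + t * ψ x ∧ (u x = 0 → t * ψ x = 0) := fun x => by
    have a1 := (hC x).trans (mul_le_mul_of_nonneg_right (le_abs_self C) (h.nn x))
    have a2 := mul_le_mul_of_nonneg_left a1 (abs_nonneg t)
    rw [← abs_mul] at a2
    refine ⟨by linarith [neg_abs_le (t * ψ x)], fun h3 => ?_⟩
    rwa [h3, mul_zero, mul_zero, abs_nonpos_iff] at a2
  have h3 := h.var (hψ.const_mul t) (R := R) (fun x hx => by rw [h0 x hx, mul_zero])
    fun x => (mul_nonneg (sub_pos.2 h1).le (h.nn x)).trans (h2 x).1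
  have h4 : ∀ x, (0 < u x + t * ψ x ↔ 0 < u x) := fun x => by
    refine ⟨fun h5 => (h.nn x).lt_of_ne fun h6 => ?_,
      fun h5 => (mul_pos (sub_pos.2 h1) h5).trans_le (h2 x).1⟩
    rw [(h2 x).2 h6.symm, ← h6, add_zero] at h5
    exact lt_irrefl _ h5
  simpa only [h4, sub_self, integral_zero, add_zero, (var_smul u ψ t _).1, (var_smul u ψ t _).2,
    integral_const_mul] using h3

theorem Mn.harm (h : Mn u) : Harm u {x | 0 < u x} := by
  refine weyl h.lip.continuous (isOpen_lt continuous_const h.lip.continuous) fun φ hφ hc hs => ?_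
  obtain ⟨R, hR⟩ := exists_radius hc
  obtain ⟨C, hC⟩ := hc.isCompact.exists_bound_of_continuousOn (f := fun x => φ x / u x)
    (hφ.continuous.continuousOn.div h.lip.continuous.continuousOn fun x hx => (hs hx).ne')
  rw [ibp_test h.lip.loc (hφ.of_le calc_le2) hc, h.outer (C := |C|)
    (lip_of_loc (hφ.of_le (by simp)).locallyLipschitz hR) hR fun x => ?_, neg_zero]
  by_cases hx : x ∈ tsupport φ
  · have h1 := (hC x hx).trans (le_abs_self C)
    have h2 : 0 < u x := hs hx
    rwa [Real.norm_eq_abs, abs_div, abs_of_pos h2, div_le_iff₀ h2] at h1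
  · rw [image_eq_zero_of_notMem_tsupport hx, abs_zero]
    exact mul_nonneg (abs_nonneg C) (h.nn x)

end Vale.Agent.P098
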